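import Crest.Agent.R165.B.Alg

/-! # R165 block DU: corner calculus (owner helper39)

`cP w s x α` / `cQ w s x α` are the values at the corner `(x, α)` seen from the edges `α` / `α + 1`, `cD = cP - cQ` is the
defect. `opA w s (x, ·)` and `cD w s x ·` determine each other; `kC g x α` has the unit defect at the corner `(x, α)`. -/

set_option autoImplicit false
noncomputable section
open Classical

namespace Crest.Agent.R165.DU

/-! ### explicit formulas -/

theorem opA0 (w : Edge → ℝ) (s : Fn) (x : Site) :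
    opA w s (x, 0) = s (x, 1) + s (x, 2) + s (x, 3) + w (x, 0) * s (x + (1, 0), 2) := rfl

theorem opA1 (w : Edge → ℝ) (s : Fn) (x : Site) :
    opA w s (x, 1) = s (x, 2) + s (x, 3) + -s (x, 0) + w (x, 1) * s (x + (0, 1), 3) := by
  simp [opA, sv, opp, edgeOf, dv]

theorem opA2 (w : Edge → ℝ) (s : Fn) (x : Site) :
    opA w s (x, 2) = s (x, 3) + -s (x, 0) + -s (x, 1) + w (x - (1, 0), 0) * -s (x + (-1, 0), 0) := by
  simp [opA, sv, opp, edgeOf, dv]

theorem opA3 (w : Edge → ℝ) (s : Fn) (x : Site) :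
    opA w s (x, 3) = -s (x, 0) + -s (x, 1) + -s (x, 2) + w (x - (0, 1), 1) * -s (x + (0, -1), 1) := by
  simp [opA, sv, opp, edgeOf, dv]

theorem add_m10 (x : Site) : x + (-1, 0) = x - (1, 0) := by
  ext <;> simp [sub_eq_add_neg]

theorem add_0m1 (x : Site) : x + (0, -1) = x - (0, 1) := by
  ext <;> simp [sub_eq_add_neg]

theorem cP0 (w : Edge → ℝ) (s : Fn) (x : Site) : cP w s x 0 = s (x, 0) + w (x, 0) * s (x + (1, 0), 2) := rfl
theorem cP1 (w : Edge → ℝ) (s : Fn) (x : Site) : cP w s x 1 = s (x, 1) + w (x, 1) * s (x + (0, 1), 3) := rfl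
theorem cP2 (w : Edge → ℝ) (s : Fn) (x : Site) : cP w s x 2 = s (x, 2) - w (x - (1, 0), 0) * s (x - (1, 0), 0) := by
  rw [← add_m10 x, show cP w s x 2 = s (x, 2) + w (x - (1, 0), 0) * -s (x + (-1, 0), 0) from rfl, ← add_m10 x]; ring
theorem cP3 (w : Edge → ℝ) (s : Fn) (x : Site) : cP w s x 3 = s (x, 3) - w (x - (0, 1), 1) * s (x - (0, 1), 1) := by
  rw [← add_0m1 x, show cP w s x 3 = s (x, 3) + w (x - (0, 1), 1) * -s (x + (0, -1), 1) from rfl, ← add_0m1 x]; ring

/-- value at the corner `(x, α)` seen from the edge `α + 1` -/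
def cQ (w : Edge → ℝ) (s : Fn) (x : Site) (α : Fin 4) : ℝ :=
  (if α = 3 then -1 else 1) * (cP w s x (α + 1) - 2 * s (x, α + 1))

/-- defect at the corner `(x, α)` -/
def cD (w : Edge → ℝ) (s : Fn) (x : Site) (α : Fin 4) : ℝ := cP w s x α - cQ w s x α

theorem cQ0 (w : Edge → ℝ) (s : Fn) (x : Site) : cQ w s x 0 = -s (x, 1) + w (x, 1) * s (x + (0, 1), 3) := by
  rw [show cQ w s x 0 = (if (0 : Fin 4) = 3 then -1 else 1) * (cP w s x 1 - 2 * s (x, 1)) from rfl, cP1,
    if_neg (by decide)]; ring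
theorem cQ1 (w : Edge → ℝ) (s : Fn) (x : Site) : cQ w s x 1 = -s (x, 2) - w (x - (1, 0), 0) * s (x - (1, 0), 0) := by
  rw [show cQ w s x 1 = (if (1 : Fin 4) = 3 then -1 else 1) * (cP w s x 2 - 2 * s (x, 2)) from rfl, cP2,
    if_neg (by decide)]; ring
theorem cQ2 (w : Edge → ℝ) (s : Fn) (x : Site) : cQ w s x 2 = -s (x, 3) - w (x - (0, 1), 1) * s (x - (0, 1), 1) := by
  rw [show cQ w s x 2 = (if (2 : Fin 4) = 3 then -1 else 1) * (cP w s x 3 - 2 * s (x, 3)) from rfl, cP3,
    if_neg (by decide)]; ring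
theorem cQ3 (w : Edge → ℝ) (s : Fn) (x : Site) : cQ w s x 3 = s (x, 0) - w (x, 0) * s (x + (1, 0), 2) := by
  rw [show cQ w s x 3 = (if (3 : Fin 4) = 3 then -1 else 1) * (cP w s x 0 - 2 * s (x, 0)) from rfl, cP0,
    if_pos rfl]; ring

theorem forall4 {p : Fin 4 → Prop} (h0 : p 0) (h1 : p 1) (h2 : p 2) (h3 : p 3) : ∀ α, p α := by
  intro α; fin_cases α; exacts [h0, h1, h2, h3]

theorem cD0 (w : Edge → ℝ) (s : Fn) (x : Site) : cD w s x 0 = opA w s (x, 0) - opA w s (x, 1) := by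
  rw [cD, cP0, cQ0, opA0, opA1]; ring
theorem cD1 (w : Edge → ℝ) (s : Fn) (x : Site) : cD w s x 1 = opA w s (x, 1) - opA w s (x, 2) := by
  rw [cD, cP1, cQ1, opA1, opA2, add_m10]; ring
theorem cD2 (w : Edge → ℝ) (s : Fn) (x : Site) : cD w s x 2 = opA w s (x, 2) - opA w s (x, 3) := by
  rw [cD, cP2, cQ2, opA2, opA3, add_m10, add_0m1]; ring
theorem cD3 (w : Edge → ℝ) (s : Fn) (x : Site) : cD w s x 3 = opA w s (x, 3) + opA w s (x, 0) := by
  rw [cD, cP3, cQ3, opA3, opA0, add_0m1]; ring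

theorem cD_eq (w : Edge → ℝ) (s : Fn) (x : Site) (α : Fin 4) :
    cD w s x α = opA w s (x, α) - (if α = 3 then -1 else 1) * opA w s (x, α + 1) := by
  revert α
  refine forall4 ?_ ?_ ?_ ?_
  · rw [cD0, if_neg (by decide)]; simp
  · rw [cD1, if_neg (by decide)]; simp
  · rw [cD2, if_neg (by decide)]; simp
  · rw [cD3, if_pos rfl]; simp

/-- `opA` in terms of the corner defects -/
theorem opA_eq_sum_cD (w : Edge → ℝ) (s : Fn) (x : Site) (β : Fin 4) :
    opA w s (x, β) = ∑ α, vC α β * cD w s x α := by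
  rw [Fin.sum_univ_four, cD0, cD1, cD2, cD3]
  revert β
  refine forall4 ?_ ?_ ?_ ?_ <;> simp [vC] <;> ring

theorem solAt_iff (w : Edge → ℝ) (s : Fn) (x : Site) : (∀ α, opA w s (x, α) = 0) ↔ ∀ α, cD w s x α = 0 := by
  constructor
  · intro h α; rw [cD_eq, h, h]; simp
  · intro h β; rw [opA_eq_sum_cD]; simp [h]

theorem solOn_iff (w : Edge → ℝ) (W : Set Site) (s : Fn) : SolOn w W s ↔ ∀ x ∈ W, ∀ α, cD w s x α = 0 :=
  forall₂_congr fun x _ => solAt_iff w s x

theorem SolOn.mono {w : Edge → ℝ} {W W' : Set Site} {s : Fn} (h : SolOn w W s) (hW : W' ⊆ W) : SolOn w W' s :=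
  fun x hx => h x (hW hx)

/-! ### linearity -/

theorem opA_add (w : Edge → ℝ) (s s' : Fn) (i : HE) : opA w (s + s') i = opA w s i + opA w s' i := by
  obtain ⟨x, α⟩ := i
  revert α
  refine forall4 ?_ ?_ ?_ ?_ <;> simp only [opA0, opA1, opA2, opA3, Pi.add_apply] <;> ring

theorem opA_smul (w : Edge → ℝ) (c : ℝ) (s : Fn) (i : HE) : opA w (c • s) i = c * opA w s i := by
  obtain ⟨x, α⟩ := i
  revert α
  refine forall4 ?_ ?_ ?_ ?_ <;> simp only [opA0, opA1, opA2, opA3, Pi.smul_apply, smul_eq_mul] <;> ring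

/-- `opA w` as a linear map -/
def opL (w : Edge → ℝ) : Fn →ₗ[ℝ] Fn where
  toFun := opA w
  map_add' s s' := funext (opA_add w s s')
  map_smul' c s := funext (opA_smul w c s)

theorem opA_sub (w : Edge → ℝ) (s s' : Fn) (i : HE) : opA w (s - s') i = opA w s i - opA w s' i :=
  congrFun ((opL w).map_sub s s') i

theorem opA_neg (w : Edge → ℝ) (s : Fn) (i : HE) : opA w (-s) i = -opA w s i :=
  congrFun ((opL w).map_neg s) i

theorem opA_zero (w : Edge → ℝ) (i : HE) : opA w 0 i = 0 := congrFun (opL w).map_zero i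

theorem opA_sum {ι : Type*} (w : Edge → ℝ) (F : Finset ι) (s : ι → Fn) (i : HE) :
    opA w (∑ a ∈ F, s a) i = ∑ a ∈ F, opA w (s a) i := by
  have := congrFun (map_sum (opL w) s F) i
  rw [Finset.sum_apply] at this
  exact this

theorem cP_add (w : Edge → ℝ) (s s' : Fn) (x : Site) (α : Fin 4) : cP w (s + s') x α = cP w s x α + cP w s' x α := by
  revert α
  refine forall4 ?_ ?_ ?_ ?_ <;> simp only [cP0, cP1, cP2, cP3, Pi.add_apply] <;> ring

theorem cP_smul (w : Edge → ℝ) (c : ℝ) (s : Fn) (x : Site) (α : Fin 4) : cP w (c • s) x α = c * cP w s x α := by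
  revert α
  refine forall4 ?_ ?_ ?_ ?_ <;> simp only [cP0, cP1, cP2, cP3, Pi.smul_apply, smul_eq_mul] <;> ring

theorem cQ_add (w : Edge → ℝ) (s s' : Fn) (x : Site) (α : Fin 4) : cQ w (s + s') x α = cQ w s x α + cQ w s' x α := by
  simp only [cQ, cP_add, Pi.add_apply]; ring

theorem cQ_smul (w : Edge → ℝ) (c : ℝ) (s : Fn) (x : Site) (α : Fin 4) : cQ w (c • s) x α = c * cQ w s x α := by
  simp only [cQ, cP_smul, Pi.smul_apply, smul_eq_mul]; ring

theorem cD_add (w : Edge → ℝ) (s s' : Fn) (x : Site) (α : Fin 4) : cD w (s + s') x α = cD w s x α + cD w s' x α := by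
  simp only [cD, cP_add, cQ_add]; ring

theorem cD_smul (w : Edge → ℝ) (c : ℝ) (s : Fn) (x : Site) (α : Fin 4) : cD w (c • s) x α = c * cD w s x α := by
  simp only [cD, cP_smul, cQ_smul]; ring

/-- `cP`, `cQ`, `cD` at a fixed corner as linear forms -/
def cPL (w : Edge → ℝ) (x : Site) (α : Fin 4) : Fn →ₗ[ℝ] ℝ where
  toFun s := cP w s x α
  map_add' s s' := cP_add w s s' x α
  map_smul' c s := cP_smul w c s x α

def cQL (w : Edge → ℝ) (x : Site) (α : Fin 4) : Fn →ₗ[ℝ] ℝ where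
  toFun s := cQ w s x α
  map_add' s s' := cQ_add w s s' x α
  map_smul' c s := cQ_smul w c s x α

def cDL (w : Edge → ℝ) (x : Site) (α : Fin 4) : Fn →ₗ[ℝ] ℝ where
  toFun s := cD w s x α
  map_add' s s' := cD_add w s s' x α
  map_smul' c s := cD_smul w c s x α

theorem cP_sum {ι : Type*} (w : Edge → ℝ) (F : Finset ι) (s : ι → Fn) (x : Site) (α : Fin 4) :
    cP w (∑ a ∈ F, s a) x α = ∑ a ∈ F, cP w (s a) x α := map_sum (cPL w x α) s F

theorem cQ_sum {ι : Type*} (w : Edge → ℝ) (F : Finset ι) (s : ι → Fn) (x : Site) (α : Fin 4) :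
    cQ w (∑ a ∈ F, s a) x α = ∑ a ∈ F, cQ w (s a) x α := map_sum (cQL w x α) s F

theorem cD_sum {ι : Type*} (w : Edge → ℝ) (F : Finset ι) (s : ι → Fn) (x : Site) (α : Fin 4) :
    cD w (∑ a ∈ F, s a) x α = ∑ a ∈ F, cD w (s a) x α := map_sum (cDL w x α) s F

theorem cD_sub (w : Edge → ℝ) (s s' : Fn) (x : Site) (α : Fin 4) : cD w (s - s') x α = cD w s x α - cD w s' x α :=
  map_sub (cDL w x α) s s'

theorem cP_sub (w : Edge → ℝ) (s s' : Fn) (x : Site) (α : Fin 4) : cP w (s - s') x α = cP w s x α - cP w s' x α :=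
  map_sub (cPL w x α) s s'

theorem cQ_sub (w : Edge → ℝ) (s s' : Fn) (x : Site) (α : Fin 4) : cQ w (s - s') x α = cQ w s x α - cQ w s' x α :=
  map_sub (cQL w x α) s s'

theorem SolOn.add {w : Edge → ℝ} {W : Set Site} {s s' : Fn} (h : SolOn w W s) (h' : SolOn w W s') :
    SolOn w W (s + s') := fun x hx α => by rw [opA_add, h x hx, h' x hx, add_zero]

theorem SolOn.smul {w : Edge → ℝ} {W : Set Site} {s : Fn} (h : SolOn w W s) (c : ℝ) :
    SolOn w W (c • s) := fun x hx α => by rw [opA_smul, h x hx, mul_zero]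

theorem SolOn.sub {w : Edge → ℝ} {W : Set Site} {s s' : Fn} (h : SolOn w W s) (h' : SolOn w W s') :
    SolOn w W (s - s') := fun x hx α => by rw [opA_sub, h x hx, h' x hx, sub_zero]

/-! ### kernels and corner sources -/

theorem kC_eq_sum (g : HE → HE → ℝ) (x : Site) (α : Fin 4) : kC g x α = ∑ β, vC α β • g (x, β) := by
  funext i; simp [kC, Finset.sum_apply]

theorem opA_kC {w : Edge → ℝ} {g : HE → HE → ℝ} (hg : IsKer w g) (x : Site) (α : Fin 4) (y : Site) (β : Fin 4) :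
    opA w (kC g x α) (y, β) = if y = x then vC α β else 0 := by
  rw [kC_eq_sum, opA_sum]
  simp only [opA_smul, hg.2, Prod.mk.injEq]
  by_cases h : y = x
  · simp [h]
  · simp [h]

/-- `kC g x α` has the unit defect at the corner `(x, α)` and no other defect -/
theorem cD_kC {w : Edge → ℝ} {g : HE → HE → ℝ} (hg : IsKer w g) (x : Site) (α : Fin 4) (y : Site) (β : Fin 4) :
    cD w (kC g x α) y β = if y = x ∧ β = α then 1 else 0 := by
  rw [cD_eq, opA_kC hg, opA_kC hg]
  by_cases h : y = x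
  · simp only [h, if_true, true_and]
    revert α β
    refine forall4 ?_ ?_ ?_ ?_ <;> refine forall4 ?_ ?_ ?_ ?_ <;> simp [vC] <;> norm_num
  · simp [h]

theorem cP_kC_self {w : Edge → ℝ} {g : HE → HE → ℝ} (hg : IsKer w g) (x : Site) (α : Fin 4) :
    cP w (kC g x α) x α = 1 / 2 := (exists_H_kC hg x α).1

theorem cQ_kC_self {w : Edge → ℝ} {g : HE → HE → ℝ} (hg : IsKer w g) (x : Site) (α : Fin 4) :
    cQ w (kC g x α) x α = -1 / 2 := by
  have h := cD_kC hg x α x α
  rw [cD, cP_kC_self hg, if_pos ⟨rfl, rfl⟩] at h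
  linarith

theorem cQ_kC_ne {w : Edge → ℝ} {g : HE → HE → ℝ} (hg : IsKer w g) {x : Site} {α : Fin 4} {y : Site} {β : Fin 4}
    (h : ¬ (y = x ∧ β = α)) : cQ w (kC g x α) y β = cP w (kC g x α) y β := by
  have h' := cD_kC hg x α y β
  rw [cD, if_neg h] at h'
  linarith

/-- defect pattern of the unit source at the half-edge `β`: `cD = dC β α` -/
def dC (β α : Fin 4) : ℝ := (if α = β then 1 else 0) - (if α = 3 then -1 else 1) * (if α + 1 = β then 1 else 0)

theorem cD_row {w : Edge → ℝ} {g : HE → HE → ℝ} (hg : IsKer w g) (k : HE) (y : Site) (α : Fin 4) :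
    cD w (g k) y α = if y = k.1 then dC k.2 α else 0 := by
  obtain ⟨x, β⟩ := k
  rw [cD_eq, hg.2, hg.2]
  by_cases h : y = x
  · simp [h, dC]
  · simp [h]

theorem sum_vC_dC (β γ : Fin 4) : ∑ α, vC α γ * dC β α = if γ = β then 1 else 0 := by
  rw [Fin.sum_univ_four]
  revert β γ
  refine forall4 ?_ ?_ ?_ ?_ <;> refine forall4 ?_ ?_ ?_ ?_ <;> simp [vC, dC] <;> norm_num

theorem sum_abs_dC (β : Fin 4) : ∑ α, |dC β α| = 2 := by
  rw [Fin.sum_univ_four]
  revert β
  refine forall4 ?_ ?_ ?_ ?_ <;> simp [dC] <;> norm_num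

theorem abs_vC (α β : Fin 4) : |vC α β| = 1 / 2 := by
  unfold vC; split_ifs <;> norm_num [abs_div]

/-- a function with the defects of a unit source solves the row equation -/
theorem opA_of_cD {w : Edge → ℝ} {s : Fn} {k : HE} (h : ∀ y α, cD w s y α = if y = k.1 then dC k.2 α else 0) (i : HE) :
    opA w s i = if i = k then 1 else 0 := by
  obtain ⟨x, β⟩ := k
  obtain ⟨y, γ⟩ := i
  rw [opA_eq_sum_cD]
  simp only [h, Prod.mk.injEq]
  by_cases hy : y = x
  · simp only [hy, if_true, true_and]; exact sum_vC_dC β γ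
  · simp [hy]

theorem abs_kC_le {g : HE → HE → ℝ} {x : Site} {α : Fin 4} {j : HE} {m : ℝ} (h : ∀ β, |g (x, β) j| ≤ m) :
    |kC g x α j| ≤ 2 * m := by
  refine (Finset.abs_sum_le_sum_abs _ _).trans ?_
  calc ∑ β, |vC α β * g (x, β) j| ≤ ∑ _β : Fin 4, 1 / 2 * m :=
        Finset.sum_le_sum fun β _ => by
          rw [abs_mul, abs_vC]; exact mul_le_mul_of_nonneg_left (h β) (by norm_num)
    _ = 2 * m := by simp; ring

theorem finite_support_kC {g : HE → HE → ℝ} (hf : FinRow g) (x : Site) (α : Fin 4) :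
    (Function.support (kC g x α)).Finite := by
  refine (Set.finite_iUnion fun β : Fin 4 => hf (x, β)).subset fun i hi => ?_
  by_contra hn
  simp only [Set.mem_iUnion, Function.mem_support, not_exists, not_not] at hn
  exact hi (by simp [kC, hn])

/-- pairing of a kernel row with a finitely supported function: `Σ_i g k i (A s) i = - s k` -/
theorem finsum_row {w : Edge → ℝ} {g : HE → HE → ℝ} (hg : ∀ k i, opA w (g k) i = if i = k then 1 else 0)
    (k : HE) (hf : (Function.support (g k)).Finite) (s : Fn) : ∑ᶠ i, g k i * opA w s i = -s k := by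
  rw [opA_antisym w (g k) s hf]
  congr 1
  rw [finsum_eq_single _ k]
  · rw [hg]; simp
  · intro i hi; rw [hg, if_neg hi, zero_mul]

/-- finitely supported rows solving `A (g k) = δ_k` are automatically antisymmetric -/
theorem isKer_of_rows {w : Edge → ℝ} {g : HE → HE → ℝ} (hg : ∀ k i, opA w (g k) i = if i = k then 1 else 0)
    (hf : FinRow g) : IsKer w g := by
  refine ⟨fun i j => ?_, hg⟩
  have h := finsum_row hg j (hf j) (g i)
  rw [finsum_eq_single _ i] at h
  · rw [hg, if_pos rfl, mul_one] at h; exact h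
  · intro k hk; rw [hg, if_neg hk, mul_zero]

/-- uniqueness from existence of a kernel with finite rows -/
theorem eq_zero_of_ker {w : Edge → ℝ} {g : HE → HE → ℝ} (hg : IsKer w g) (hf : FinRow g) {s : Fn}
    (hs : SolOn w Set.univ s) : s = 0 := by
  funext k
  have h := finsum_row hg.2 k (hf k) s
  have h0 : ∀ i, g k i * opA w s i = 0 := fun i => by rw [show opA w s i = 0 from hs i.1 trivial i.2, mul_zero]
  simp only [h0, finsum_zero] at h
  simpa using h.symm

theorem eq_row_of_ker {w : Edge → ℝ} {g : HE → HE → ℝ} (hg : IsKer w g) (hf : FinRow g) {s : Fn} {k : HE}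
    (hs : ∀ i, opA w s i = if i = k then 1 else 0) : s = g k := by
  have h : SolOn w Set.univ (s - g k) := fun x _ α => by rw [opA_sub, hs, hg.2, sub_self]
  exact sub_eq_zero.1 (eq_zero_of_ker hg hf h)

/-- any function whose defects are carried by the finite set `F` of corners is the corresponding combination of `kC` -/
theorem eq_sum_kC {w : Edge → ℝ} {g : HE → HE → ℝ} (hg : IsKer w g) (hf : FinRow g) {s : Fn} (F : Finset HE)
    (hs : ∀ c : HE, c ∉ F → cD w s c.1 c.2 = 0) : s = ∑ c ∈ F, cD w s c.1 c.2 • kC g c.1 c.2 := by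
  refine sub_eq_zero.1 (eq_zero_of_ker hg hf ((solOn_iff _ _ _).2 fun y _ β => ?_))
  rw [cD_sub, cD_sum]
  simp only [cD_smul, cD_kC hg]
  by_cases h : (y, β) ∈ F
  · rw [Finset.sum_eq_single (y, β)]
    · simp
    · rintro ⟨x, α⟩ _ hne
      rw [if_neg, mul_zero]
      rintro ⟨rfl, rfl⟩; exact hne rfl
    · intro h'; exact absurd h h'
  · rw [hs (y, β) h, Finset.sum_eq_zero, sub_zero]
    rintro ⟨x, α⟩ hc
    rw [if_neg, mul_zero]
    rintro ⟨rfl, rfl⟩; exact h hc

/-! ### the ultra-local kernel -/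

/-- inverse of the vertex matrix -/
def g0 (i j : HE) : ℝ :=
  if j.1 = i.1 then ![![0, 1, -1, 1], ![-1, 0, 1, -1], ![1, -1, 0, 1], ![-1, 1, -1, 0]] i.2 j.2 else 0

theorem g0_ne {i j : HE} (h : j.1 ≠ i.1) : g0 i j = 0 := if_neg h

theorem finRow_g0 : FinRow g0 := by
  intro k
  refine (Set.finite_range fun β : Fin 4 => ((k.1, β) : HE)).subset fun j hj => ?_
  by_contra hn
  refine hj (g0_ne fun h => hn ⟨j.2, ?_⟩)
  rw [← h]

theorem opA_g0 (k i : HE) : opA 0 (g0 k) i = if i = k then 1 else 0 := by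
  obtain ⟨x, α⟩ := k
  obtain ⟨y, β⟩ := i
  by_cases h : y = x
  · subst h
    revert α β
    refine forall4 ?_ ?_ ?_ ?_ <;> refine forall4 ?_ ?_ ?_ ?_ <;>
      simp [opA0, opA1, opA2, opA3, g0]
  · revert β
    refine forall4 ?_ ?_ ?_ ?_ <;> simp [opA0, opA1, opA2, opA3, g0, h]

theorem isKer_g0 : IsKer 0 g0 := isKer_of_rows opA_g0 finRow_g0

/-- `opA w s` does not see the weights of edges on which the opposite value vanishes -/
theorem opA_congr_w {w w' : Edge → ℝ} {s : Fn} {i : HE}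
    (h : w (edgeOf i.1 i.2) = w' (edgeOf i.1 i.2) ∨ opp s i.1 i.2 = 0) : opA w s i = opA w' s i := by
  unfold opA
  rcases h with h | h <;> rw [h]
  simp

end Crest.Agent.R165.DU
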