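import Crest.Agent.R165.DU.Corner

/-! # R165 block DU: the (signed) Kramers–Wannier dual of a function (owner helper39)

`dualF t s` is the unsigned dual (weights `t ↦ dW t`), `dualS t S s` the dual with branch points: the weights
`sw t S = t · eray S` go to `sw (dW t) S` with the SAME set `S`; all corner values are transported (up to the sign `sg`),
the roles of `cP` and `cQ` are exchanged, and exactly the corners `(v - (1,1), 0) ↔ (v, 2)`, `v ∈ S`, are flipped.
`undS` is the inverse map. -/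

set_option autoImplicit false
noncomputable section
open Classical

namespace Crest.Agent.R165

/-- dual function: `s'` lives on the half-edges at black sites and has the same corner values
(`P'(b, α+2) = P(x, α)`, antiperiodic reading). `t e = |w e|`. -/
def dualF (t : Edge → ℝ) (s : Fn) : Fn := fun i =>
  let b := i.1
  ![ -- E half-bond at b: crossing edge (b - e1, 1), half-edges (b - e1, N), (b, S)
     (1 + t (b - (0, 1), 1)) / 2 * (s (b - (0, 1), 1) + s (b, 3)),
     -- N half-bond at b: crossing edge (b - e0, 0), half-edges (b - e0, E), (b, W)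
     -((1 + t (b - (1, 0), 0)) / 2) * (s (b - (1, 0), 0) - s (b, 2)),
     -- W half-bond at b
     -((1 + t (b - (1, 1), 1)) / 2) * (s (b - (1, 1), 1) - s (b - (1, 0), 3)),
     -- S half-bond at b
     -((1 + t (b - (1, 1), 0)) / 2) * (s (b - (1, 1), 0) + s (b - (0, 1), 2)) ] i.2

namespace DU

theorem dualF0 (t : Edge → ℝ) (s : Fn) (b : Site) :
    dualF t s (b, 0) = (1 + t (b - (0, 1), 1)) / 2 * (s (b - (0, 1), 1) + s (b, 3)) := rfl
theorem dualF1 (t : Edge → ℝ) (s : Fn) (b : Site) :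
    dualF t s (b, 1) = -((1 + t (b - (1, 0), 0)) / 2) * (s (b - (1, 0), 0) - s (b, 2)) := rfl
theorem dualF2 (t : Edge → ℝ) (s : Fn) (b : Site) :
    dualF t s (b, 2) = -((1 + t (b - (1, 1), 1)) / 2) * (s (b - (1, 1), 1) - s (b - (1, 0), 3)) := rfl
theorem dualF3 (t : Edge → ℝ) (s : Fn) (b : Site) :
    dualF t s (b, 3) = -((1 + t (b - (1, 1), 0)) / 2) * (s (b - (1, 1), 0) + s (b - (0, 1), 2)) := rfl

/-- dual weights -/
def dW (t : Edge → ℝ) (e : Edge) : ℝ := (1 - t (bondEdge e.1 e.2)) / (1 + t (bondEdge e.1 e.2))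

theorem dW0 (t : Edge → ℝ) (b : Site) : dW t (b, 0) = (1 - t (b - (0, 1), 1)) / (1 + t (b - (0, 1), 1)) := rfl
theorem dW1 (t : Edge → ℝ) (b : Site) : dW t (b, 1) = (1 - t (b - (1, 0), 0)) / (1 + t (b - (1, 0), 0)) := rfl

/-- weights with the cuts of `S` -/
def sw (t : Edge → ℝ) (S : Finset Site) (e : Edge) : ℝ := t e * eray S e

/-- sign of the vertical edge issued from `x` -/
def ep (S : Finset Site) (x : Site) : ℝ := eray S (x, 1)

theorem eray0 (S : Finset Site) (x : Site) : eray S (x, 0) = 1 := by simp [eray]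

theorem eray_empty (e : Edge) : eray ∅ e = 1 := by simp [eray]

theorem eray_sign (S : Finset Site) (e : Edge) : eray S e = 1 ∨ eray S e = -1 := by
  unfold eray; split_ifs
  · exact neg_one_pow_eq_or ℝ _
  · exact Or.inl rfl

theorem ep_mul_self (S : Finset Site) (x : Site) : ep S x * ep S x = 1 := by
  rcases eray_sign S (x, 1) with h | h <;> simp [ep, h]

theorem abs_ep (S : Finset Site) (x : Site) : |ep S x| = 1 := by
  rcases eray_sign S (x, 1) with h | h <;> simp [ep, h]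

theorem ep_succ (S : Finset Site) (x : Site) :
    ep S (x + (1, 0)) = (if x + (1, 1) ∈ S then -1 else 1) * ep S x := by
  have key : (S.filter fun v => v.2 = (x + (1, 0)).2 + 1 ∧ v.1 ≤ (x + (1, 0)).1) =
      (S.filter fun v => v = x + (1, 1)) ∪ S.filter fun v => v.2 = x.2 + 1 ∧ v.1 ≤ x.1 := by
    rw [← Finset.filter_or]
    refine Finset.filter_congr fun v _ => ?_
    simp only [Prod.ext_iff, Prod.fst_add, Prod.snd_add]
    omega
  have hd : Disjoint (S.filter fun v => v = x + (1, 1)) (S.filter fun v => v.2 = x.2 + 1 ∧ v.1 ≤ x.1) := by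
    refine Finset.disjoint_filter.2 fun v _ h h' => ?_
    rw [h] at h'
    simp only [Prod.fst_add, Prod.snd_add] at h'
    omega
  simp only [ep, eray, if_true]
  rw [key, Finset.card_union_of_disjoint hd, pow_add, Finset.filter_eq']
  split_ifs <;> simp

theorem sw0 (t : Edge → ℝ) (S : Finset Site) (x : Site) : sw t S (x, 0) = t (x, 0) := by simp [sw, eray0]
theorem sw1 (t : Edge → ℝ) (S : Finset Site) (x : Site) : sw t S (x, 1) = t (x, 1) * ep S x := rfl
theorem sw_empty (t : Edge → ℝ) : sw t ∅ = t := by funext e; simp [sw, eray_empty]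

/-- flip of the lower half-edge of the cut edges -/
def flipLo (S : Finset Site) (s : Fn) : Fn := fun i => if i.2 = 1 then ep S i.1 * s i else s i
/-- flip of the upper half-edge of the cut edges -/
def flipHi (S : Finset Site) (s : Fn) : Fn := fun i => if i.2 = 3 then ep S (i.1 - (0, 1)) * s i else s i

/-- the dual with branch points -/
def dualS (t : Edge → ℝ) (S : Finset Site) (s : Fn) : Fn := flipHi S (dualF t (flipLo S s))
/-- inverse of the unsigned dual: `τ = dW t` -/
def undF (τ : Edge → ℝ) (s : Fn) : Fn := -shift (1, 1) (dualF τ s)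
/-- inverse of `dualS t S`: `τ = dW t` -/
def undS (τ : Edge → ℝ) (S : Finset Site) (s : Fn) : Fn := flipLo S (undF τ (flipHi S s))

theorem flipLo_flipLo (S : Finset Site) (s : Fn) : flipLo S (flipLo S s) = s := by
  funext i; unfold flipLo; split_ifs
  · rw [← mul_assoc, ep_mul_self, one_mul]
  · rfl

theorem flipHi_flipHi (S : Finset Site) (s : Fn) : flipHi S (flipHi S s) = s := by
  funext i; unfold flipHi; split_ifs
  · rw [← mul_assoc, ep_mul_self, one_mul]
  · rfl

theorem abs_flipLo (S : Finset Site) (s : Fn) (i : HE) : |flipLo S s i| = |s i| := by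
  unfold flipLo; split_ifs
  · rw [abs_mul, abs_ep, one_mul]
  · rfl

theorem abs_flipHi (S : Finset Site) (s : Fn) (i : HE) : |flipHi S s i| = |s i| := by
  unfold flipHi; split_ifs
  · rw [abs_mul, abs_ep, one_mul]
  · rfl

theorem flipLo_empty (s : Fn) : flipLo ∅ s = s := by funext i; simp [flipLo, ep, eray_empty]
theorem flipHi_empty (s : Fn) : flipHi ∅ s = s := by funext i; simp [flipHi, ep, eray_empty]
theorem dualS_empty (t : Edge → ℝ) (s : Fn) : dualS t ∅ s = dualF t s := by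
  rw [dualS, flipLo_empty, flipHi_empty]
theorem undS_empty (t : Edge → ℝ) (s : Fn) : undS t ∅ s = undF t s := by
  rw [undS, flipLo_empty, flipHi_empty]

theorem dualS0 (t : Edge → ℝ) (S : Finset Site) (s : Fn) (b : Site) : dualS t S s (b, 0) =
    (1 + t (b - (0, 1), 1)) / 2 * (ep S (b - (0, 1)) * s (b - (0, 1), 1) + s (b, 3)) := by
  simp [dualS, flipHi, flipLo, dualF0]
theorem dualS1 (t : Edge → ℝ) (S : Finset Site) (s : Fn) (b : Site) : dualS t S s (b, 1) =
    -((1 + t (b - (1, 0), 0)) / 2) * (s (b - (1, 0), 0) - s (b, 2)) := by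
  simp [dualS, flipHi, flipLo, dualF1]
theorem dualS2 (t : Edge → ℝ) (S : Finset Site) (s : Fn) (b : Site) : dualS t S s (b, 2) =
    -((1 + t (b - (1, 1), 1)) / 2) * (ep S (b - (1, 1)) * s (b - (1, 1), 1) - s (b - (1, 0), 3)) := by
  simp [dualS, flipHi, flipLo, dualF2]
theorem dualS3 (t : Edge → ℝ) (S : Finset Site) (s : Fn) (b : Site) : dualS t S s (b, 3) =
    ep S (b - (0, 1)) * (-((1 + t (b - (1, 1), 0)) / 2) * (s (b - (1, 1), 0) + s (b - (0, 1), 2))) := by
  simp [dualS, flipHi, flipLo, dualF3]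

/-- site arithmetic -/
theorem st_ext {x y : Site} (h1 : x.1 = y.1) (h2 : x.2 = y.2) : x = y := Prod.ext h1 h2

macro "site_tac" : tactic =>
  `(tactic| (refine st_ext ?_ ?_ <;> simp only [Prod.fst_add, Prod.snd_add, Prod.fst_sub, Prod.snd_sub] <;> omega))

theorem s1 (x : Site) : x + (1, 1) - (1, 1) = x := by site_tac
theorem s2 (x : Site) : x + (1, 1) - (1, 0) = x + (0, 1) := by site_tac
theorem s3 (x : Site) : x + (1, 1) - (0, 1) = x + (1, 0) := by site_tac
theorem s4 (x : Site) : x + (0, 1) - (0, 1) = x := by site_tac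
theorem s5 (x : Site) : x + (1, 0) - (1, 0) = x := by site_tac
theorem s6 (x : Site) : x + (0, 1) - (1, 1) = x - (1, 0) := by site_tac
theorem s7 (x : Site) : x + (1, 0) - (1, 1) = x - (0, 1) := by site_tac
theorem s8 (x : Site) : x + (0, 1) + (1, 0) = x + (1, 1) := by site_tac
theorem s9 (x : Site) : x + (1, 0) + (0, 1) = x + (1, 1) := by site_tac
theorem s10 (x : Site) : x - (0, 1) - (1, 0) = x - (1, 1) := by site_tac
theorem s11 (x : Site) : x - (1, 0) - (0, 1) = x - (1, 1) := by site_tac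
theorem s12 (x : Site) : x - (0, 1) + (1, 1) = x + (1, 0) := by site_tac
theorem s13 (x : Site) : x - (1, 0) + (1, 1) = x + (0, 1) := by site_tac
theorem s14 (x : Site) : x - (1, 1) + (1, 1) = x := by site_tac
theorem s15 (x : Site) : x + (0, 0) = x := by site_tac
theorem s16 (x : Site) : x - (0, 1) + (0, 1) = x := by site_tac
theorem s17 (x : Site) : x - (1, 0) + (1, 0) = x := by site_tac
theorem s18 (x : Site) : x - (1, 1) + (1, 0) = x - (0, 1) := by site_tac
theorem s19 (x : Site) : x - (1, 1) + (0, 1) = x - (1, 0) := by site_tac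

theorem cB0 (x : Site) : cB x 0 = x + (1, 1) := rfl
theorem cB1 (x : Site) : cB x 1 = x + (0, 1) := rfl
theorem cB2 (x : Site) : cB x 2 = x := s15 x
theorem cB3 (x : Site) : cB x 3 = x + (1, 0) := rfl

/-- sign carried by the corner `(x, α)` -/
def sg (S : Finset Site) (x : Site) (α : Fin 4) : ℝ := ![ep S x, ep S x, -1, -1] α

theorem sg_mul_self (S : Finset Site) (x : Site) (α : Fin 4) : sg S x α * sg S x α = 1 := by
  revert α
  refine forall4 ?_ ?_ ?_ ?_ <;> simp [sg, ep_mul_self]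

theorem abs_sg (S : Finset Site) (x : Site) (α : Fin 4) : |sg S x α| = 1 := by
  revert α
  refine forall4 ?_ ?_ ?_ ?_ <;> simp [sg, abs_ep]

theorem sg_ne_zero (S : Finset Site) (x : Site) (α : Fin 4) : sg S x α ≠ 0 := fun h => by
  have := sg_mul_self S x α; rw [h] at this; simp at this

/-- **transport of corner values, I** -/
theorem cP_dualS {t : Edge → ℝ} (ht : ∀ e, 1 + t e ≠ 0) (S : Finset Site) (s : Fn) (x : Site) (α : Fin 4) :
    cP (sw (dW t) S) (dualS t S s) (cB x α) (α + 2) = sg S x α * cQ (sw t S) s x α := by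
  revert α
  refine forall4 ?_ ?_ ?_ ?_
  · rw [show ((0 : Fin 4) + 2) = 2 from rfl, cB0, cP2, cQ0, sw0, sw1, dW0, dualS2, dualS0]
    simp only [s1, s2, s4, sg, Matrix.cons_val]
    have h := ht (x, 1); have h2 := ep_mul_self S x
    field_simp
    linear_combination (-2 * t (x, 1) * s (x + (0, 1), 3)) * h2
  · rw [show ((1 : Fin 4) + 2) = 3 from rfl, cB1, cP3, cQ1, sw0, sw1, dW1, dualS3, dualS1]
    simp only [s4, s6, sg, Matrix.cons_val]
    have h := ht (x - (1, 0), 0)
    field_simp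
    ring
  · rw [show ((2 : Fin 4) + 2) = 0 from rfl, cB2, cP0, cQ2, sw0, sw1, dW0, dualS0, dualS2]
    simp only [s5, s7, sg, Matrix.cons_val]
    have h := ht (x - (0, 1), 1)
    field_simp
    ring
  · rw [show ((3 : Fin 4) + 2) = 1 from rfl, cB3, cP1, cQ3, sw0, sw1, dW1, dualS1, dualS3]
    simp only [s1, s3, s5, s9, sg, Matrix.cons_val]
    have h := ht (x, 0); have h2 := ep_mul_self S (x + (1, 0))
    field_simp
    linear_combination (-((1 - t (x, 0)) * (s (x, 0) + s (x + (1, 0), 2)))) * h2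

/-- **transport of corner values, II**: flipped exactly at the corners `(v - (1,1), 0)`, `v ∈ S` -/
theorem cQ_dualS {t : Edge → ℝ} (ht : ∀ e, 1 + t e ≠ 0) (S : Finset Site) (s : Fn) (x : Site) (α : Fin 4) :
    cQ (sw (dW t) S) (dualS t S s) (cB x α) (α + 2) =
      (if α = 0 ∧ x + (1, 1) ∈ S then -1 else 1) * (sg S x α * cP (sw t S) s x α) := by
  revert α
  refine forall4 ?_ ?_ ?_ ?_
  · rw [show ((0 : Fin 4) + 2) = 2 from rfl, cB0, cQ2, cP0, sw0, sw1, dW1, dualS3, dualS1]
    simp only [s1, s3, s5, sg, Matrix.cons_val, true_and, ep_succ]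
    have h := ht (x, 0)
    field_simp
    ring
  · rw [show ((1 : Fin 4) + 2) = 3 from rfl, cB1, cQ3, cP1, sw0, sw1, dW0, dualS0, dualS2, if_neg (by simp)]
    simp only [s1, s2, s4, s8, sg, Matrix.cons_val]
    have h := ht (x, 1); have h2 := ep_mul_self S x
    field_simp
    linear_combination (-2 * t (x, 1) * s (x + (0, 1), 3)) * h2
  · rw [show ((2 : Fin 4) + 2) = 0 from rfl, cB2, cQ0, cP2, sw0, sw1, dW1, dualS1, dualS3, if_neg (by simp)]
    simp only [s4, s6, sg, Matrix.cons_val]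
    have h := ht (x - (1, 0), 0); have h2 := ep_mul_self S x
    field_simp
    linear_combination (-((1 - t (x - (1, 0), 0)) * (s (x - (1, 0), 0) + s (x, 2)))) * h2
  · rw [show ((3 : Fin 4) + 2) = 1 from rfl, cB3, cQ1, cP3, sw0, sw1, dW0, dualS2, dualS0, if_neg (by simp)]
    simp only [s5, s7, sg, Matrix.cons_val]
    have h := ht (x - (0, 1), 1)
    field_simp
    ring

/-- defects are transported away from the flipped corners -/
theorem cD_dualS {t : Edge → ℝ} (ht : ∀ e, 1 + t e ≠ 0) (S : Finset Site) (s : Fn) (x : Site) (α : Fin 4)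
    (h : ¬ (α = 0 ∧ x + (1, 1) ∈ S)) :
    cD (sw (dW t) S) (dualS t S s) (cB x α) (α + 2) = -(sg S x α * cD (sw t S) s x α) := by
  rw [cD, cP_dualS ht, cQ_dualS ht, if_neg h, cD]; ring

/-- at a flipped corner the dual defect is the sum of the two corner values -/
theorem cD_dualS_flip {t : Edge → ℝ} (ht : ∀ e, 1 + t e ≠ 0) (S : Finset Site) (s : Fn) (x : Site)
    (h : x + (1, 1) ∈ S) :
    cD (sw (dW t) S) (dualS t S s) (x + (1, 1)) 2 = ep S x * (cP (sw t S) s x 0 + cQ (sw t S) s x 0) := by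
  have h1 := cP_dualS ht S s x 0
  have h2 := cQ_dualS ht S s x 0
  rw [if_pos ⟨rfl, h⟩] at h2
  rw [show ((0 : Fin 4) + 2) = 2 from rfl, cB0] at h1 h2
  rw [cD, h1, h2, show sg S x 0 = ep S x from rfl]; ring

/-- the white end of the corner `(b, β)` of the dual picture -/
def cW (b : Site) (β : Fin 4) : Site := cB b β - (1, 1)

theorem cW0 (b : Site) : cW b 0 = b := s1 b
theorem cW1 (b : Site) : cW b 1 = b - (1, 0) := s6 b
theorem cW2 (b : Site) : cW b 2 = b - (1, 1) := by rw [cW, cB2]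
theorem cW3 (b : Site) : cW b 3 = b - (0, 1) := s7 b

theorem add_two_two (β : Fin 4) : β + 2 + 2 = β := by revert β; decide

theorem cB_cW (b : Site) (β : Fin 4) : cB (cW b β) (β + 2) = b := by
  revert β
  refine forall4 ?_ ?_ ?_ ?_
  · rw [cW0]; exact cB2 b
  · rw [cW1]; exact s17 b
  · rw [cW2]; exact s14 b
  · rw [cW3]; exact s16 b

theorem cW_cB (x : Site) (α : Fin 4) : cW (cB x α) (α + 2) = x := by
  revert α
  refine forall4 ?_ ?_ ?_ ?_
  · exact (cW2 _).trans (s1 x)
  · exact (cW3 _).trans (s4 x)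
  · exact (cW0 _).trans (cB2 x)
  · exact (cW1 _).trans (s5 x)

theorem corner_eq_iff (x y : Site) (α β : Fin 4) : (cB y β = cB x α ∧ β + 2 = α + 2) ↔ (y = x ∧ β = α) := by
  constructor
  · rintro ⟨h1, h2⟩
    have h3 : β = α := add_right_cancel h2
    subst h3
    exact ⟨by rw [← cW_cB y β, h1, cW_cB], rfl⟩
  · rintro ⟨rfl, rfl⟩; exact ⟨rfl, rfl⟩

/-- dual defects, indexed by the dual corner -/
theorem cD_dualS' {t : Edge → ℝ} (ht : ∀ e, 1 + t e ≠ 0) (S : Finset Site) (s : Fn) (b : Site) (β : Fin 4)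
    (h : ¬ (β = 2 ∧ b ∈ S)) :
    cD (sw (dW t) S) (dualS t S s) b β = -(sg S (cW b β) (β + 2) * cD (sw t S) s (cW b β) (β + 2)) := by
  have := cD_dualS ht S s (cW b β) (β + 2) (by
    rintro ⟨h1, h2⟩
    have h3 : β = 2 := by rw [← add_two_two β, h1]; rfl
    subst h3
    rw [cW2, s14] at h2
    exact h ⟨rfl, h2⟩)
  rwa [cB_cW, add_two_two] at this

/-! ### inversion -/

theorem one_add_dW {t : Edge → ℝ} (ht : ∀ e, 1 + t e ≠ 0) (e : Edge) : 1 + dW t e = 2 / (1 + t (bondEdge e.1 e.2)) := by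
  have := ht (bondEdge e.1 e.2)
  unfold dW; field_simp; ring

theorem one_add_dW_ne {t : Edge → ℝ} (ht : ∀ e, 1 + t e ≠ 0) (e : Edge) : 1 + dW t e ≠ 0 := by
  rw [one_add_dW ht]; exact div_ne_zero two_ne_zero (ht _)

theorem undF0 (τ : Edge → ℝ) (s : Fn) (x : Site) :
    undF τ s (x, 0) = -((1 + τ (x + (1, 0), 1)) / 2 * (s (x + (1, 0), 1) + s (x + (1, 1), 3))) := by
  simp only [undF, shift, Pi.neg_apply, dualF0, s3]
theorem undF1 (τ : Edge → ℝ) (s : Fn) (x : Site) :
    undF τ s (x, 1) = (1 + τ (x + (0, 1), 0)) / 2 * (s (x + (0, 1), 0) - s (x + (1, 1), 2)) := by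
  simp only [undF, shift, Pi.neg_apply, dualF1, s2]; ring
theorem undF2 (τ : Edge → ℝ) (s : Fn) (x : Site) :
    undF τ s (x, 2) = (1 + τ (x, 1)) / 2 * (s (x, 1) - s (x + (0, 1), 3)) := by
  simp only [undF, shift, Pi.neg_apply, dualF2, s1, s2]; ring
theorem undF3 (τ : Edge → ℝ) (s : Fn) (x : Site) :
    undF τ s (x, 3) = (1 + τ (x, 0)) / 2 * (s (x, 0) + s (x + (1, 0), 2)) := by
  simp only [undF, shift, Pi.neg_apply, dualF3, s1, s3]; ring

theorem undF_dualF {t : Edge → ℝ} (ht : ∀ e, 1 + t e ≠ 0) (s : Fn) : undF (dW t) (dualF t s) = s := by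
  funext ⟨x, α⟩
  revert α
  refine forall4 ?_ ?_ ?_ ?_
  · rw [undF0, dW1, dualF1, dualF3]
    simp only [s1, s3, s5]
    have := ht (x, 0); field_simp; ring
  · rw [undF1, dW0, dualF0, dualF2]
    simp only [s1, s2, s4]
    have := ht (x, 1); field_simp; ring
  · rw [undF2, dW1, dualF1, dualF3]
    simp only [s4, s6]
    have := ht (x - (1, 0), 0); field_simp; ring
  · rw [undF3, dW0, dualF0, dualF2]
    simp only [s5, s7]
    have := ht (x - (0, 1), 1); field_simp; ring

theorem dualF_undF {t : Edge → ℝ} (ht : ∀ e, 1 + t e ≠ 0) (s : Fn) : dualF t (undF (dW t) s) = s := by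
  funext ⟨b, β⟩
  revert β
  refine forall4 ?_ ?_ ?_ ?_
  · rw [dualF0, undF1, undF3, s16, s12, dW0]
    have := ht (b - (0, 1), 1); field_simp; ring
  · rw [dualF1, undF0, undF2, s17, s13, dW1]
    have := ht (b - (1, 0), 0); field_simp; ring
  · rw [dualF2, undF1, undF3, s19, s14, s17, dW0, s11]
    have := ht (b - (1, 1), 1); field_simp; ring
  · rw [dualF3, undF0, undF2, s18, s14, s16, dW1, s10]
    have := ht (b - (1, 1), 0); field_simp; ring

theorem undS_dualS {t : Edge → ℝ} (ht : ∀ e, 1 + t e ≠ 0) (S : Finset Site) (s : Fn) :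
    undS (dW t) S (dualS t S s) = s := by
  rw [undS, dualS, flipHi_flipHi, undF_dualF ht, flipLo_flipLo]

theorem dualS_undS {t : Edge → ℝ} (ht : ∀ e, 1 + t e ≠ 0) (S : Finset Site) (s : Fn) :
    dualS t S (undS (dW t) S s) = s := by
  rw [undS, dualS, flipLo_flipLo, dualF_undF ht, flipHi_flipHi]

/-- corner values of the inverse dual -/
theorem cQ_undS {t : Edge → ℝ} (ht : ∀ e, 1 + t e ≠ 0) (S : Finset Site) (s : Fn) (x : Site) (α : Fin 4) :
    cQ (sw t S) (undS (dW t) S s) x α = sg S x α * cP (sw (dW t) S) s (cB x α) (α + 2) := by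
  have h := cP_dualS ht S (undS (dW t) S s) x α
  rw [dualS_undS ht] at h
  rw [h, ← mul_assoc, sg_mul_self, one_mul]

theorem cP_undS {t : Edge → ℝ} (ht : ∀ e, 1 + t e ≠ 0) (S : Finset Site) (s : Fn) (x : Site) (α : Fin 4) :
    cP (sw t S) (undS (dW t) S s) x α =
      (if α = 0 ∧ x + (1, 1) ∈ S then -1 else 1) * (sg S x α * cQ (sw (dW t) S) s (cB x α) (α + 2)) := by
  have h := cQ_dualS ht S (undS (dW t) S s) x α
  rw [dualS_undS ht] at h
  have h2 := sg_mul_self S x α
  rw [h]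
  split_ifs
  · linear_combination (-cP (sw t S) (undS (dW t) S s) x α) * h2
  · linear_combination (-cP (sw t S) (undS (dW t) S s) x α) * h2

theorem cD_undS {t : Edge → ℝ} (ht : ∀ e, 1 + t e ≠ 0) (S : Finset Site) (s : Fn) (x : Site) (α : Fin 4)
    (h : ¬ (α = 0 ∧ x + (1, 1) ∈ S)) :
    cD (sw t S) (undS (dW t) S s) x α = -(sg S x α * cD (sw (dW t) S) s (cB x α) (α + 2)) := by
  rw [cD, cP_undS ht, cQ_undS ht, if_neg h, cD]; ring

theorem cD_undS_flip {t : Edge → ℝ} (ht : ∀ e, 1 + t e ≠ 0) (S : Finset Site) (s : Fn) (x : Site)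
    (h : x + (1, 1) ∈ S) :
    cD (sw t S) (undS (dW t) S s) x 0 =
      -(ep S x * (cP (sw (dW t) S) s (x + (1, 1)) 2 + cQ (sw (dW t) S) s (x + (1, 1)) 2)) := by
  rw [cD, cP_undS ht, cQ_undS ht, if_pos ⟨rfl, h⟩, show sg S x 0 = ep S x from rfl,
    show ((0 : Fin 4) + 2) = 2 from rfl, cB0]; ring

/-! ### linearity -/

theorem dualF_add (t : Edge → ℝ) (s s' : Fn) : dualF t (s + s') = dualF t s + dualF t s' := by
  funext ⟨b, β⟩
  revert β
  refine forall4 ?_ ?_ ?_ ?_ <;> simp only [dualF0, dualF1, dualF2, dualF3, Pi.add_apply] <;> ring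

theorem dualF_smul (t : Edge → ℝ) (c : ℝ) (s : Fn) : dualF t (c • s) = c • dualF t s := by
  funext ⟨b, β⟩
  revert β
  refine forall4 ?_ ?_ ?_ ?_ <;> simp only [dualF0, dualF1, dualF2, dualF3, Pi.smul_apply, smul_eq_mul] <;> ring

theorem flipLo_add (S : Finset Site) (s s' : Fn) : flipLo S (s + s') = flipLo S s + flipLo S s' := by
  funext i; simp only [flipLo, Pi.add_apply]; split_ifs <;> ring
theorem flipLo_smul (S : Finset Site) (c : ℝ) (s : Fn) : flipLo S (c • s) = c • flipLo S s := by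
  funext i; simp only [flipLo, Pi.smul_apply, smul_eq_mul]; split_ifs <;> ring
theorem flipHi_add (S : Finset Site) (s s' : Fn) : flipHi S (s + s') = flipHi S s + flipHi S s' := by
  funext i; simp only [flipHi, Pi.add_apply]; split_ifs <;> ring
theorem flipHi_smul (S : Finset Site) (c : ℝ) (s : Fn) : flipHi S (c • s) = c • flipHi S s := by
  funext i; simp only [flipHi, Pi.smul_apply, smul_eq_mul]; split_ifs <;> ring

theorem undF_add (t : Edge → ℝ) (s s' : Fn) : undF t (s + s') = undF t s + undF t s' := by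
  funext i; simp only [undF, shift, dualF_add, Pi.add_apply, Pi.neg_apply]; ring
theorem undF_smul (t : Edge → ℝ) (c : ℝ) (s : Fn) : undF t (c • s) = c • undF t s := by
  funext i; simp only [undF, shift, dualF_smul, Pi.smul_apply, Pi.neg_apply, smul_eq_mul]; ring

/-- `dualS`, `undS` as linear maps -/
def dualL (t : Edge → ℝ) (S : Finset Site) : Fn →ₗ[ℝ] Fn where
  toFun := dualS t S
  map_add' s s' := by simp only [dualS, flipLo_add, dualF_add, flipHi_add]
  map_smul' c s := by simp only [dualS, flipLo_smul, dualF_smul, flipHi_smul, RingHom.id_apply]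

def undL (t : Edge → ℝ) (S : Finset Site) : Fn →ₗ[ℝ] Fn where
  toFun := undS t S
  map_add' s s' := by simp only [undS, flipLo_add, undF_add, flipHi_add]
  map_smul' c s := by simp only [undS, flipLo_smul, undF_smul, flipHi_smul, RingHom.id_apply]

theorem dualS_add (t : Edge → ℝ) (S : Finset Site) (s s' : Fn) : dualS t S (s + s') = dualS t S s + dualS t S s' :=
  (dualL t S).map_add s s'
theorem dualS_sub (t : Edge → ℝ) (S : Finset Site) (s s' : Fn) : dualS t S (s - s') = dualS t S s - dualS t S s' :=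
  (dualL t S).map_sub s s'
theorem dualS_smul (t : Edge → ℝ) (S : Finset Site) (c : ℝ) (s : Fn) : dualS t S (c • s) = c • dualS t S s :=
  (dualL t S).map_smul c s
theorem dualS_sum {ι : Type*} (t : Edge → ℝ) (S : Finset Site) (F : Finset ι) (s : ι → Fn) :
    dualS t S (∑ a ∈ F, s a) = ∑ a ∈ F, dualS t S (s a) := map_sum (dualL t S) s F
theorem undS_add (t : Edge → ℝ) (S : Finset Site) (s s' : Fn) : undS t S (s + s') = undS t S s + undS t S s' :=
  (undL t S).map_add s s'
theorem undS_sub (t : Edge → ℝ) (S : Finset Site) (s s' : Fn) : undS t S (s - s') = undS t S s - undS t S s' :=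
  (undL t S).map_sub s s'
theorem undS_smul (t : Edge → ℝ) (S : Finset Site) (c : ℝ) (s : Fn) : undS t S (c • s) = c • undS t S s :=
  (undL t S).map_smul c s
theorem undS_sum {ι : Type*} (t : Edge → ℝ) (S : Finset Site) (F : Finset ι) (s : ι → Fn) :
    undS t S (∑ a ∈ F, s a) = ∑ a ∈ F, undS t S (s a) := map_sum (undL t S) s F

/-! ### bounds and supports -/

theorem abs_half_le {a u v m : ℝ} (h0 : 0 ≤ a) (h1 : a ≤ 1) (hu : |u| ≤ m) (hv : |v| ≤ m) :
    |(1 + a) / 2 * (u + v)| ≤ 2 * m ∧ |(1 + a) / 2 * (u - v)| ≤ 2 * m := by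
  have hm : 0 ≤ m := (abs_nonneg _).trans hu
  have ha : |(1 + a) / 2| ≤ 1 := by rw [abs_le]; constructor <;> linarith
  constructor
  · rw [abs_mul]
    calc |(1 + a) / 2| * |u + v| ≤ 1 * (2 * m) :=
          mul_le_mul ha ((abs_add_le _ _).trans (by linarith)) (abs_nonneg _) zero_le_one
      _ = 2 * m := one_mul _
  · rw [abs_mul]
    calc |(1 + a) / 2| * |u - v| ≤ 1 * (2 * m) :=
          mul_le_mul ha ((abs_sub _ _).trans (by linarith)) (abs_nonneg _) zero_le_one
      _ = 2 * m := one_mul _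

theorem abs_dualF_le {t : Edge → ℝ} (ht : ∀ e, 0 ≤ t e ∧ t e ≤ 1) {s : Fn} {b : Site} {m : ℝ}
    (h : ∀ β γ, |s (cW b β, γ)| ≤ m) (β : Fin 4) : |dualF t s (b, β)| ≤ 2 * m := by
  have h0 := h 0; have h1 := h 1; have h2 := h 2; have h3 := h 3
  rw [cW0] at h0; rw [cW1] at h1; rw [cW2] at h2; rw [cW3] at h3
  revert β
  refine forall4 ?_ ?_ ?_ ?_
  · rw [dualF0]; exact (abs_half_le (ht _).1 (ht _).2 (h3 _) (h0 _)).1
  · rw [dualF1, neg_mul, abs_neg]; exact (abs_half_le (ht _).1 (ht _).2 (h1 _) (h0 _)).2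
  · rw [dualF2, neg_mul, abs_neg]; exact (abs_half_le (ht _).1 (ht _).2 (h2 _) (h1 _)).2
  · rw [dualF3, neg_mul, abs_neg]; exact (abs_half_le (ht _).1 (ht _).2 (h2 _) (h3 _)).1

/-- the dual function at `b` only sees the four white neighbours `cW b β` -/
theorem abs_dualS_le {t : Edge → ℝ} (ht : ∀ e, 0 ≤ t e ∧ t e ≤ 1) (S : Finset Site) {s : Fn} {b : Site} {m : ℝ}
    (h : ∀ β γ, |s (cW b β, γ)| ≤ m) (β : Fin 4) : |dualS t S s (b, β)| ≤ 2 * m := by
  rw [dualS, abs_flipHi]
  exact abs_dualF_le ht (fun β γ => by rw [abs_flipLo]; exact h β γ) β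

theorem cW_add (x : Site) (β : Fin 4) : cW (x + (1, 1)) β = cB x β := by
  unfold cW cB; abel

/-- the inverse dual at `x` only sees the four black neighbours `cB x β` -/
theorem abs_undS_le {τ : Edge → ℝ} (hτ : ∀ e, 0 ≤ τ e ∧ τ e ≤ 1) (S : Finset Site) {s : Fn} {x : Site} {m : ℝ}
    (h : ∀ β γ, |s (cB x β, γ)| ≤ m) (α : Fin 4) : |undS τ S s (x, α)| ≤ 2 * m := by
  rw [undS, abs_flipLo, undF, Pi.neg_apply, abs_neg]
  exact abs_dualF_le hτ (fun β γ => by rw [abs_flipHi, cW_add]; exact h β γ) α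

theorem dualF_eq_zero (t : Edge → ℝ) {s : Fn} {b : Site} (h : ∀ β γ, s (cW b β, γ) = 0) (β : Fin 4) :
    dualF t s (b, β) = 0 := by
  have h0 := h 0; have h1 := h 1; have h2 := h 2; have h3 := h 3
  rw [cW0] at h0; rw [cW1] at h1; rw [cW2] at h2; rw [cW3] at h3
  revert β
  refine forall4 ?_ ?_ ?_ ?_ <;> simp [dualF0, dualF1, dualF2, dualF3, h0, h1, h2, h3]

theorem dualS_eq_zero (t : Edge → ℝ) (S : Finset Site) {s : Fn} {b : Site} (h : ∀ β γ, s (cW b β, γ) = 0) (β : Fin 4) :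
    dualS t S s (b, β) = 0 := by
  rw [← abs_eq_zero, dualS, abs_flipHi, abs_eq_zero]
  exact dualF_eq_zero t (fun β γ => by rw [← abs_eq_zero, abs_flipLo, h, abs_zero]) β

theorem undS_eq_zero (τ : Edge → ℝ) (S : Finset Site) {s : Fn} {x : Site} (h : ∀ β γ, s (cB x β, γ) = 0) (α : Fin 4) :
    undS τ S s (x, α) = 0 := by
  rw [← abs_eq_zero, undS, abs_flipLo, undF, Pi.neg_apply, abs_neg, abs_eq_zero]
  exact dualF_eq_zero τ (fun β γ => by rw [← abs_eq_zero, abs_flipHi, cW_add, h, abs_zero]) α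

theorem finite_support_dualS (t : Edge → ℝ) (S : Finset Site) {s : Fn} (h : (Function.support s).Finite) :
    (Function.support (dualS t S s)).Finite := by
  refine (Set.finite_iUnion fun p : Fin 4 × Fin 4 =>
    h.image fun i : HE => ((cB i.1 (p.1 + 2), p.2) : HE)).subset ?_
  rintro ⟨b, β⟩ hb
  by_contra hn
  refine hb (dualS_eq_zero t S (fun β' γ => ?_) β)
  by_contra hne
  exact hn (Set.mem_iUnion.2 ⟨(β', β), (cW b β', γ), hne, by simp only [cB_cW]⟩)

theorem finite_support_undS (τ : Edge → ℝ) (S : Finset Site) {s : Fn} (h : (Function.support s).Finite) :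
    (Function.support (undS τ S s)).Finite := by
  refine (Set.finite_iUnion fun p : Fin 4 × Fin 4 =>
    h.image fun i : HE => ((cW i.1 (p.1 + 2), p.2) : HE)).subset ?_
  rintro ⟨x, α⟩ hb
  by_contra hn
  refine hb (undS_eq_zero τ S (fun β' γ => ?_) α)
  by_contra hne
  exact hn (Set.mem_iUnion.2 ⟨(β', α), (cB x β', γ), hne, by simp only [cW_cB]⟩)

/-! ### solutions -/

/-- the dual of a solution is a solution away from the spins -/
theorem sol_dualS {t : Edge → ℝ} (ht : ∀ e, 1 + t e ≠ 0) (S : Finset Site) {s : Fn} {W W' : Set Site}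
    (hs : SolOn (sw t S) W s) (hW : ∀ b ∈ W', b ∉ S ∧ ∀ β, cW b β ∈ W) : SolOn (sw (dW t) S) W' (dualS t S s) := by
  rw [solOn_iff] at hs ⊢
  intro b hb β
  rw [cD_dualS' ht S s b β fun h => (hW b hb).1 h.2, hs _ ((hW b hb).2 β), mul_zero, neg_zero]

theorem sol_undS {t : Edge → ℝ} (ht : ∀ e, 1 + t e ≠ 0) (S : Finset Site) {s : Fn} {W W' : Set Site}
    (hs : SolOn (sw (dW t) S) W' s) (hW : ∀ x ∈ W, x + (1, 1) ∉ S ∧ ∀ α, cB x α ∈ W') :
    SolOn (sw t S) W (undS (dW t) S s) := by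
  rw [solOn_iff] at hs ⊢
  intro x hx α
  rw [cD_undS ht S s x α fun h => (hW x hx).1 h.2, hs _ ((hW x hx).2 α), mul_zero, neg_zero]

/-! ### the free and the critical weights -/

theorem tc_dual : (1 - tc) / (1 + tc) = tc := by
  have h := tc_pos.1
  have h2 := tc_sq
  field_simp
  linarith

theorem wFree_eq (T : Set Site) (S : Finset Site) : wFree T S = sw (wFree T ∅) S := by
  funext e; simp [wFree, sw, eray_empty]

theorem wOf_eq (E : Set Edge) (S : Finset Site) : wOf E S = sw (wOf E ∅) S := by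
  funext e; simp only [wOf, sw, eray_empty]; split_ifs <;> simp

theorem wOf_univ (S : Finset Site) : wOf Set.univ S = sw wPl S := by
  funext e; simp [wOf, sw, wPl]

theorem bondEdge_mem_eIn (T : Set Site) (e : Edge) : bondEdge e.1 e.2 ∈ eIn T ↔ e ∈ eDual T := by
  obtain ⟨b, j⟩ := e
  fin_cases j
  · show (b - (0, 1) + (0, 1) ∈ T ∧ b - (0, 1) + (1, 1) ∈ T) ↔ (b ∈ T ∧ b + (1, 0) ∈ T)
    rw [s16, s12]
  · show (b - (1, 0) + (1, 0) ∈ T ∧ b - (1, 0) + (1, 1) ∈ T) ↔ (b ∈ T ∧ b + (0, 1) ∈ T)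
    rw [s17, s13]

theorem dW_wFree (T : Set Site) : dW (wFree T ∅) = wOf (eDual T) ∅ := by
  funext e
  simp only [dW, wFree, wOf, eray_empty, mul_one, bondEdge_mem_eIn]
  split_ifs
  · exact tc_dual
  · simp

theorem dW_wPl : dW wPl = wPl := by funext e; exact tc_dual

theorem wFree_mem (T : Set Site) (e : Edge) : 0 ≤ wFree T ∅ e ∧ wFree T ∅ e ≤ 1 := by
  simp only [wFree, eray_empty, mul_one]
  split_ifs
  · exact ⟨tc_pos.1.le, tc_pos.2.le⟩
  · exact ⟨zero_le_one, le_rfl⟩

theorem wOf_mem (E : Set Edge) (e : Edge) : 0 ≤ wOf E ∅ e ∧ wOf E ∅ e ≤ 1 := by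
  simp only [wOf, eray_empty, mul_one]
  split_ifs
  · exact ⟨tc_pos.1.le, tc_pos.2.le⟩
  · exact ⟨le_rfl, zero_le_one⟩

theorem wPl_mem (e : Edge) : 0 ≤ wPl e ∧ wPl e ≤ 1 := ⟨tc_pos.1.le, tc_pos.2.le⟩

theorem one_add_ne {t : Edge → ℝ} (ht : ∀ e, 0 ≤ t e ∧ t e ≤ 1) (e : Edge) : 1 + t e ≠ 0 := by
  have := (ht e).1; positivity

/-- the dual of the free weights with spins `S` are the type P weights of `eDual T` with the same spins -/
theorem sw_dW_wFree (T : Set Site) (S : Finset Site) : sw (dW (wFree T ∅)) S = wOf (eDual T) S := by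
  rw [dW_wFree, ← wOf_eq]

theorem sw_dW_wPl (S : Finset Site) : sw (dW wPl) S = wOf Set.univ S := by
  rw [dW_wPl, wOf_univ]

end DU
end Crest.Agent.R165
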