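import Crest.Agent.R165.DU.Free

/-! # R165 block DU: the free kernel with spins from the dual kernel (owner helper39)

`g` is the kernel of the type P weights `wOf (eDual T) S`; `mK T S g` is the antisymmetric matrix of the corner values at the
corners `(v, 2)`, `v ∈ S`, of the corner sources `kC g v 2`.  If it is invertible, `freeRow T S g` is the kernel of
`wFree T S`. -/

set_option autoImplicit false
noncomputable section
open Classical Filter Topology

namespace Crest.Agent.R165.DU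

/-- sum of the two values at a corner -/
def cS (w : Edge → ℝ) (s : Fn) (x : Site) (α : Fin 4) : ℝ := cP w s x α + cQ w s x α

theorem cS_add (w : Edge → ℝ) (s s' : Fn) (x : Site) (α : Fin 4) : cS w (s + s') x α = cS w s x α + cS w s' x α := by
  simp only [cS, cP_add, cQ_add]; ring

theorem cS_smul (w : Edge → ℝ) (c : ℝ) (s : Fn) (x : Site) (α : Fin 4) : cS w (c • s) x α = c * cS w s x α := by
  simp only [cS, cP_smul, cQ_smul]; ring

theorem cS_sum {ι : Type*} (w : Edge → ℝ) (F : Finset ι) (s : ι → Fn) (x : Site) (α : Fin 4) :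
    cS w (∑ a ∈ F, s a) x α = ∑ a ∈ F, cS w (s a) x α := by
  simp only [cS, cP_sum, cQ_sum, Finset.sum_add_distrib]

/-- the corner value in terms of the four values at the site -/
theorem cS_eq (w : Edge → ℝ) (s : Fn) (x : Site) (α : Fin 4) :
    cS w s x α = 4 * ∑ β, vC α β * s (x, β) + (opA w s (x, α) + (if α = 3 then -1 else 1) * opA w s (x, α + 1)) := by
  rw [Fin.sum_univ_four]
  revert α
  refine forall4 ?_ ?_ ?_ ?_
  · rw [cS, cP0, cQ0, show ((0 : Fin 4) + 1) = 1 from rfl, opA0, opA1]; simp [vC]; ring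
  · rw [cS, cP1, cQ1, show ((1 : Fin 4) + 1) = 2 from rfl, opA1, opA2, add_m10]; simp [vC]; ring
  · rw [cS, cP2, cQ2, show ((2 : Fin 4) + 1) = 3 from rfl, opA2, opA3, add_m10, add_0m1]; simp [vC]; ring
  · rw [cS, cP3, cQ3, show ((3 : Fin 4) + 1) = 0 from rfl, opA3, opA0, add_0m1]; simp [vC]; ring

/-- the corner kernel at the corner `(y, β)` with the source at the corner `(x, α)`, same direction or different sites -/
theorem cS_kC {w : Edge → ℝ} {g : HE → HE → ℝ} (hg : IsKer w g) {x y : Site} {α β : Fin 4} (h : y ≠ x ∨ β = α) :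
    cS w (kC g x α) y β = 4 * ∑ β', ∑ α', vC β β' * vC α α' * g (x, α') (y, β') := by
  rw [cS_eq, opA_kC hg, opA_kC hg]
  have e : ∑ β', vC β β' * kC g x α (y, β') = ∑ β', ∑ α', vC β β' * vC α α' * g (x, α') (y, β') :=
    Finset.sum_congr rfl fun β' _ => by rw [kC, Finset.mul_sum]; simp only [mul_assoc]
  rw [e, add_eq_left]
  by_cases hy : y = x
  · obtain rfl : β = α := h.resolve_left (not_not.2 hy)
    rw [if_pos hy, if_pos hy]
    refine forall4 (p := fun β => vC β β + (if β = 3 then -1 else 1) * vC β (β + 1) = 0) ?_ ?_ ?_ ?_ β <;>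
      simp [vC] <;> norm_num
  · simp [hy]

theorem abs_cS_le {w : Edge → ℝ} (hw : ∀ e, |w e| ≤ 1) {s : Fn} {x : Site} {m : ℝ}
    (h : ∀ z δ, supd z x ≤ 1 → |s (z, δ)| ≤ m) (α : Fin 4) : |cS w s x α| ≤ 4 * m := by
  have ho : ∀ γ, |w (edgeOf x γ) * opp s x γ| ≤ m := fun γ => by
    have h1 : |opp s x γ| ≤ m := by
      unfold opp sv
      split_ifs
      · exact h _ _ (supd_dv x γ).le
      · rw [abs_neg]; exact h _ _ (supd_dv x γ).le
    rw [abs_mul]
    exact (mul_le_of_le_one_left (abs_nonneg _) (hw _)).trans h1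
  have h0 : ∀ γ, |s (x, γ)| ≤ m := fun γ => h x γ (by rw [supd_self]; omega)
  have h1 := abs_le.1 (ho α); have h2 := abs_le.1 (ho (α + 1))
  have h3 := abs_le.1 (h0 α); have h4 := abs_le.1 (h0 (α + 1))
  unfold cS cQ cP
  rw [abs_le]
  split_ifs <;> constructor <;> linarith [h1.1, h1.2, h2.1, h2.2, h3.1, h3.2, h4.1, h4.2]

theorem abs_wOf_le (E : Set Edge) (S : Finset Site) (e : Edge) : |wOf E S e| ≤ 1 := by
  rw [wOf_eq, sw, abs_mul, abs_of_nonneg (wOf_mem E e).1]
  rcases eray_sign S e with h | h <;> simpa [h] using (wOf_mem E e).2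

/-- the corner matrix of the spins -/
def mK (T : Set Site) (S : Finset Site) (g : HE → HE → ℝ) : Matrix S S ℝ :=
  Matrix.of fun v' v => cS (wOf (eDual T) S) (kC g v 2) v' 2

theorem mK_apply {T : Set Site} {S : Finset Site} {g : HE → HE → ℝ} (hg : IsKer (wOf (eDual T) S) g) (v' v : S) :
    mK T S g v' v = 4 * ∑ β', ∑ β, vC 2 β' * vC 2 β * g (v, β) (v', β') := cS_kC hg (Or.inr rfl)

theorem mK_antisymm {T : Set Site} {S : Finset Site} {g : HE → HE → ℝ} (hg : IsKer (wOf (eDual T) S) g) (v' v : S) :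
    mK T S g v v' = -mK T S g v' v := by
  rw [mK_apply hg, mK_apply hg, Finset.sum_comm, ← mul_neg, ← Finset.sum_neg_distrib]
  congr 1
  refine Finset.sum_congr rfl fun β' _ => ?_
  rw [← Finset.sum_neg_distrib]
  refine Finset.sum_congr rfl fun β _ => ?_
  rw [hg.1 ((v : Site), β) ((v' : Site), β')]; ring

/-- right-hand side of the linear system for the row `k` -/
def rhsRow (T : Set Site) (S : Finset Site) (g : HE → HE → ℝ) (k : HE) (v : S) : ℝ :=
  -(ep S ((v : Site) - (1, 1)) * if (v : Site) - (1, 1) = k.1 then dC k.2 0 else 0) - cS (wOf (eDual T) S) (srcRow S g k) v 2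

/-- coefficients of the corner sources at the spins -/
def coefRow (T : Set Site) (S : Finset Site) (g : HE → HE → ℝ) (k : HE) : S → ℝ := (mK T S g)⁻¹.mulVec (rhsRow T S g k)

/-- the dual picture of the row `k` of the free kernel -/
def freeSrc (T : Set Site) (S : Finset Site) (g : HE → HE → ℝ) (k : HE) : Fn :=
  srcRow S g k + ∑ v : S, coefRow T S g k v • kC g v 2

/-- the free kernel with spins -/
def freeRow (T : Set Site) (S : Finset Site) (g : HE → HE → ℝ) (k : HE) : Fn :=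
  undS (wOf (eDual T) ∅) S (freeSrc T S g k)

theorem finite_support_sum {ι : Type*} (F : Finset ι) {s : ι → Fn} (h : ∀ a ∈ F, (Function.support (s a)).Finite) :
    (Function.support (∑ a ∈ F, s a)).Finite := by
  refine (F.finite_toSet.biUnion h).subset fun i hi => ?_
  by_contra hn
  simp only [Set.mem_iUnion, Function.mem_support, not_exists, not_not] at hn
  exact hi (by rw [Finset.sum_apply]; exact Finset.sum_eq_zero hn)

theorem finRow_freeRow (T : Set Site) (S : Finset Site) {g : HE → HE → ℝ} (hf : FinRow g) : FinRow (freeRow T S g) :=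
  fun k => finite_support_undS _ S (((finite_support_srcRow hf S k).union
    (finite_support_sum (s := fun v : S => coefRow T S g k v • kC g v 2) Finset.univ fun v _ =>
    (finite_support_kC hf v 2).subset (Function.support_const_smul_subset _ _))).subset
    (Function.support_add (srcRow S g k) (∑ v : S, coefRow T S g k v • kC g v 2)))

theorem opA_freeRow {T : Set Site} {S : Finset Site} {g : HE → HE → ℝ} (hg : IsKer (wOf (eDual T) S) g)
    (hd : (mK T S g).det ≠ 0) (k i : HE) : opA (wFree T S) (freeRow T S g k) i = if i = k then 1 else 0 := by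
  have ht := one_add_ne (wFree_mem T)
  refine opA_of_cD (fun y α => ?_) i
  rw [wFree_eq T S, freeRow, ← dW_wFree]
  by_cases h : α = 0 ∧ y + (1, 1) ∈ S
  · obtain ⟨rfl, hy⟩ := h
    have h1 : (mK T S g).mulVec (coefRow T S g k) ⟨_, hy⟩ = rhsRow T S g k ⟨_, hy⟩ := by
      rw [coefRow, Matrix.mulVec_mulVec, Matrix.mul_nonsing_inv _ (Ne.isUnit hd), Matrix.one_mulVec]
    rw [cD_undS_flip ht S _ y hy, sw_dW_wFree, ← cS, freeSrc, cS_add, cS_sum]
    simp only [cS_smul]
    have h2 : ∑ v : S, coefRow T S g k v * cS (wOf (eDual T) S) (kC g v 2) (y + (1, 1)) 2 = rhsRow T S g k ⟨_, hy⟩ := by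
      rw [← h1, Matrix.mulVec, dotProduct]
      exact Finset.sum_congr rfl fun v _ => mul_comm _ _
    rw [h2, rhsRow]
    simp only [s1]
    linear_combination (if y = k.1 then dC k.2 0 else 0) * ep_mul_self S y
  · rw [cD_undS ht S _ y α h, sw_dW_wFree, freeSrc, cD_add, cD_sum, mul_add, neg_add, cD_srcRow hg,
      Finset.sum_eq_zero, mul_zero, neg_zero, add_zero]
    intro v _
    rw [cD_smul, cD_kC hg, if_neg, mul_zero]
    rintro ⟨h1, h2⟩
    have h3 : α = 0 := by rw [← add_two_two α, h2]; rfl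
    subst h3
    exact h ⟨rfl, by rw [← cB0, h1]; exact v.2⟩

/-- **the free kernel with spins** -/
theorem isKer_freeRow {T : Set Site} {S : Finset Site} {g : HE → HE → ℝ} (hg : IsKer (wOf (eDual T) S) g) (hf : FinRow g)
    (hd : (mK T S g).det ≠ 0) : IsKer (wFree T S) (freeRow T S g) :=
  isKer_of_rows (opA_freeRow hg hd) (finRow_freeRow T S hf)

/-! ### bounds -/

def dBn (S : Finset Site) (l : ℕ) (x : Site) : ℕ := S.fold min l fun v => supd x v + 1

theorem dB_eq (S : Finset Site) (l : ℕ) (x : Site) : dB S l x = dBn S l x := rfl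

theorem dBn_le (S : Finset Site) (l : ℕ) (x : Site) : dBn S l x ≤ l ∧ ∀ v ∈ S, dBn S l x ≤ supd x v + 1 :=
  (Finset.le_fold_min _).1 le_rfl

theorem dBn_pos (S : Finset Site) {l : ℕ} (hl : 1 ≤ l) (x : Site) : 1 ≤ dBn S l x :=
  (Finset.le_fold_min _).2 ⟨hl, fun _ _ => by omega⟩

theorem dBn_le_three {S : Finset Site} {l l' : ℕ} {x y : Site} (hxy : supd y x ≤ 1) (h : dBn S l x ≤ 3 * l') :
    dBn S l x ≤ 3 * dBn S l' y := by
  rcases (Finset.fold_min_le _).1 (le_refl (dBn S l' y)) with h1 | ⟨v, hv, h1⟩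
  · omega
  · have h2 := (dBn_le S l x).2 v hv
    have h3 := supd_triangle x y v
    rw [supd_comm x y] at h3
    omega

/-- the bound of `ker_bound` up to the scale `L` -/
def KB (S : Finset Site) (L C : ℝ) (g : HE → HE → ℝ) : Prop :=
  ∀ (l : ℕ) (i j : HE), 1 ≤ l → (l : ℝ) ≤ L → l ≤ supd i.1 j.1 + 1 → g i j ^ 2 * (dB S l i.1 * dB S l j.1) ≤ C ^ 2

theorem KB.swap {S : Finset Site} {L C : ℝ} {g : HE → HE → ℝ} (h : KB S L C g) : KB S L C fun i j => g j i :=
  fun l i j hl hL hd => by rw [mul_comm (dB S l i.1)]; exact h l j i hl hL (by rwa [supd_comm])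

theorem abs_le_div_sqrt {a C d : ℝ} (hd : 0 < d) (h : a ^ 2 * d ≤ C ^ 2) : |a| ≤ |C| / √d := by
  rw [le_div_iff₀ (Real.sqrt_pos.2 hd), ← abs_of_nonneg (Real.sqrt_nonneg d), ← abs_mul]
  exact sq_le_sq.1 (by rw [mul_pow, Real.sq_sqrt hd.le]; exact h)

theorem KB.near {S : Finset Site} {L C : ℝ} {g : HE → HE → ℝ} (h : KB S L C g) {l : ℕ} {x y : Site} {i j : HE}
    (hl : 1 ≤ l) (hL : (l : ℝ) ≤ L) (hd : l ≤ supd x y + 1) (hi : supd i.1 x ≤ 1) (hj : supd j.1 y ≤ 1) :
    |g i j| ≤ 3 * |C| / (√(dB S l x) * √(dB S l y)) := by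
  obtain ⟨l', hl1, hl2, hl3, hl4⟩ : ∃ l' : ℕ, 1 ≤ l' ∧ l' ≤ l ∧ l ≤ 3 * l' ∧ (l' = 1 ∨ l' + 2 ≤ l) :=
    ⟨max 1 (l - 2), by omega, by omega, by omega, by omega⟩
  have h3 := supd_triangle x i.1 y
  have h4 := supd_triangle i.1 j.1 y
  rw [supd_comm x i.1] at h3
  have h1 := h l' i j hl1 (le_trans (by exact_mod_cast hl2) hL) (by omega)
  have hx : dB S l x ≤ 3 * dB S l' i.1 := by
    rw [dB_eq, dB_eq]; exact_mod_cast dBn_le_three hi ((dBn_le S l x).1.trans hl3)
  have hy : dB S l y ≤ 3 * dB S l' j.1 := by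
    rw [dB_eq, dB_eq]; exact_mod_cast dBn_le_three hj ((dBn_le S l y).1.trans hl3)
  have hx0 : 0 < dB S l x := by rw [dB_eq]; exact_mod_cast dBn_pos S hl x
  have hy0 : 0 < dB S l y := by rw [dB_eq]; exact_mod_cast dBn_pos S hl y
  rw [← Real.sqrt_mul hx0.le, show 3 * |C| = |3 * C| by rw [abs_mul, abs_of_pos (by norm_num : (0 : ℝ) < 3)]]
  refine abs_le_div_sqrt (mul_pos hx0 hy0) ?_
  calc g i j ^ 2 * (dB S l x * dB S l y) ≤ g i j ^ 2 * (3 * dB S l' i.1 * (3 * dB S l' j.1)) :=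
        mul_le_mul_of_nonneg_left (mul_le_mul hx hy hy0.le (hx0.le.trans hx)) (sq_nonneg _)
    _ ≤ (3 * C) ^ 2 := by nlinarith

theorem KB.spin {S : Finset Site} {L C : ℝ} {g : HE → HE → ℝ} (h : KB S L C g) {l : ℕ} {x v : Site} {i j : HE}
    (hl : 1 ≤ l) (hL : (l : ℝ) ≤ L) (hv : v ∈ S) (hi : supd i.1 x ≤ 1) (hj : supd j.1 v ≤ 1) :
    |g i j| ≤ 2 * |C| / √(dB S l x) := by
  have h3 := supd_triangle x i.1 v
  have h4 := supd_triangle i.1 j.1 v
  rw [supd_comm x i.1] at h3
  have h5 := dBn_le S l x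
  have h6 := h5.2 v hv
  have h1 := h (min l (supd i.1 j.1 + 1)) i j (by omega) (le_trans (by exact_mod_cast min_le_left _ _) hL)
    (min_le_right _ _)
  have hx : dB S l x ≤ 3 * dB S (min l (supd i.1 j.1 + 1)) i.1 := by
    rw [dB_eq, dB_eq]; exact_mod_cast dBn_le_three hi (by omega)
  have hy : 1 ≤ dB S (min l (supd i.1 j.1 + 1)) j.1 := by
    rw [dB_eq]; exact_mod_cast dBn_pos S (by omega) _
  have hx0 : 0 < dB S l x := by rw [dB_eq]; exact_mod_cast dBn_pos S hl x
  rw [show 2 * |C| = |2 * C| by rw [abs_mul, abs_two]]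
  refine abs_le_div_sqrt hx0 ?_
  have h7 : g i j ^ 2 * dB S (min l (supd i.1 j.1 + 1)) i.1 ≤ C ^ 2 :=
    le_trans (mul_le_mul_of_nonneg_left (le_mul_of_one_le_right (by linarith) hy) (sq_nonneg _)) h1
  calc g i j ^ 2 * dB S l x ≤ g i j ^ 2 * (3 * dB S (min l (supd i.1 j.1 + 1)) i.1) := by gcongr
    _ ≤ (2 * C) ^ 2 := by nlinarith [sq_nonneg C]

theorem abs_inv_le {ι : Type} [Fintype ι] [DecidableEq ι] {M : Matrix ι ι ℝ} {n : ℕ} (hn : Fintype.card ι ≤ n) {m c : ℝ}
    (hm : 1 ≤ m) (hM : ∀ i j, |M i j| ≤ m) (hc : 0 < c) (hd : c ≤ |M.det|) (i j : ι) :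
    |M⁻¹ i j| ≤ n.factorial * m ^ n / c := by
  rw [Matrix.inv_def, Matrix.smul_apply, smul_eq_mul, Ring.inverse_eq_inv', abs_mul, abs_inv, Matrix.adjugate_apply,
    mul_comm, ← div_eq_mul_inv]
  refine div_le_div₀ (by positivity) ?_ hc hd
  have h := Matrix.det_le (abv := AbsoluteValue.abs) (A := M.updateRow j (Pi.single i 1)) (x := m) fun a b => by
    rw [AbsoluteValue.abs_apply, Matrix.updateRow_apply]
    split_ifs
    · rw [Pi.single_apply]; split_ifs <;> simp <;> linarith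
    · exact hM a b
  rw [AbsoluteValue.abs_apply, nsmul_eq_mul] at h
  refine h.trans (mul_le_mul ?_ (pow_le_pow_right₀ hm hn) (by positivity) (by positivity))
  exact_mod_cast Nat.factorial_le hn

theorem KB.mK_le {T : Set Site} {S : Finset Site} {L C : ℝ} {g : HE → HE → ℝ} (h : KB S L C g) (hL : 1 ≤ L) (v' v : S) :
    |mK T S g v' v| ≤ 8 * |C| := by
  have h1 : ∀ i j, |g i j| ≤ |C| := fun i j => by
    have h2 := h 1 i j le_rfl (by exact_mod_cast hL) (by omega)
    have h3 : ∀ x, dB S 1 x = 1 := fun x => by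
      rw [dB_eq]; exact_mod_cast le_antisymm (dBn_le S 1 x).1 (dBn_pos S le_rfl x)
    rw [h3, h3, mul_one, mul_one] at h2
    exact sq_le_sq.1 h2
  have := abs_cS_le (abs_wOf_le (eDual T) S) (s := kC g v 2) (x := v') (m := 2 * |C|)
    (fun z δ _ => abs_kC_le fun β => h1 _ _) 2
  rw [mK, Matrix.of_apply]; linarith

/-- **bound for the free kernel with spins** -/
theorem freeRow_bound (n : ℕ) (C c : ℝ) (hc : 0 < c) : ∃ C' : ℝ, ∀ (T : Set Site) (S : Finset Site) (g : HE → HE → ℝ) (L : ℝ),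
    S.card ≤ n → KB S L C g → c ≤ |(mK T S g).det| → KB S L C' (freeRow T S g) := by
  set B : ℝ := n.factorial * (8 * |C| + 1) ^ n / c with hB
  have hB0 : 0 ≤ B := by positivity
  refine ⟨2 * (12 * |C| + n * (n * (B * (4 + 32 * |C|)) * (4 * |C|))), fun T S g L hn h hd l k j hl hL hkj => ?_⟩
  have hL1 : 1 ≤ L := le_trans (by exact_mod_cast hl) hL
  have hpos : ∀ x, 0 < dB S l x := fun x => by rw [dB_eq]; exact_mod_cast dBn_pos S hl x
  have hsq : ∀ x, 0 < √(dB S l x) := fun x => Real.sqrt_pos.2 (hpos x)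
  have hinv : ∀ v v', |(mK T S g)⁻¹ v v'| ≤ B := fun v v' =>
    abs_inv_le (by simpa using hn) (by linarith [abs_nonneg C]) (fun a b => (h.mK_le hL1 a b).trans (by linarith)) hc hd v v'
  have hrhs : ∀ v, |rhsRow T S g k v| ≤ (4 + 32 * |C|) / √(dB S l k.1) := fun v => by
    have h1 := abs_cS_le (abs_wOf_le (eDual T) S) (s := srcRow S g k) (x := v) (m := 4 * (2 * |C| / √(dB S l k.1)))
      (fun z δ hz => abs_srcRow_le S fun α β => h.spin hl hL v.2 (supd_cB k.1 α) hz) 2
    have h2 : |(if (v : Site) - (1, 1) = k.1 then dC k.2 0 else 0)| ≤ 4 / √(dB S l k.1) := by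
      split_ifs with hv
      · have h3 : |dC k.2 0| ≤ 2 := by
          rw [← sum_abs_dC k.2]
          exact Finset.single_le_sum (f := fun α => |dC k.2 α|) (fun _ _ => abs_nonneg _) (Finset.mem_univ _)
        have h4 : dB S l k.1 ≤ 2 ^ 2 := by
          have h5 := (dBn_le S l k.1).2 v v.2
          have h6 : supd k.1 v = 1 := by rw [← hv]; simp [supd]
          rw [dB_eq]; exact_mod_cast (by omega : dBn S l k.1 ≤ 2 ^ 2)
        have h7 : √(dB S l k.1) ≤ 2 := Real.sqrt_le_iff.2 ⟨by norm_num, h4⟩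
        rw [le_div_iff₀ (hsq _)]
        nlinarith [abs_nonneg (dC k.2 0), hsq k.1]
      · rw [abs_zero]; exact div_nonneg (by norm_num) (hsq _).le
    rw [rhsRow]
    refine (abs_sub _ _).trans ?_
    rw [abs_neg, abs_mul, abs_ep, one_mul, add_div]
    refine add_le_add h2 (h1.trans (le_of_eq ?_))
    ring
  have hcard : (Fintype.card S : ℝ) ≤ n := by rw [Fintype.card_coe]; exact_mod_cast hn
  have hco : ∀ v, |coefRow T S g k v| ≤ n * (B * (4 + 32 * |C|)) / √(dB S l k.1) := fun v => by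
    rw [coefRow, Matrix.mulVec, dotProduct]
    refine (Finset.abs_sum_le_sum_abs _ _).trans ((Finset.sum_le_card_nsmul _ _
      (B * ((4 + 32 * |C|) / √(dB S l k.1))) fun v' _ => ?_).trans ?_)
    · rw [abs_mul]; exact mul_le_mul (hinv _ _) (hrhs _) (abs_nonneg _) hB0
    · rw [nsmul_eq_mul, Finset.card_univ, mul_div_assoc, mul_div_assoc]
      have := hsq k.1
      gcongr
  have hsrc : ∀ γ δ, |freeSrc T S g k (cB j.1 γ, δ)| ≤
      (12 * |C| + n * (n * (B * (4 + 32 * |C|)) * (4 * |C|))) / (√(dB S l k.1) * √(dB S l j.1)) := fun γ δ => by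
    rw [freeSrc, Pi.add_apply, add_div]
    refine (abs_add_le _ _).trans (add_le_add ?_ ?_)
    · refine (abs_srcRow_le S fun α β => h.near hl hL hkj (supd_cB k.1 α) (supd_cB j.1 γ)).trans (le_of_eq ?_)
      ring
    · rw [Finset.sum_apply]
      refine (Finset.abs_sum_le_sum_abs _ _).trans ((Finset.sum_le_card_nsmul _ _
        (n * (B * (4 + 32 * |C|)) / √(dB S l k.1) * (2 * (2 * |C| / √(dB S l j.1)))) fun v _ => ?_).trans ?_)
      · rw [Pi.smul_apply, smul_eq_mul, abs_mul]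
        refine mul_le_mul (hco v) (abs_kC_le fun β => ?_) (abs_nonneg _) ((abs_nonneg _).trans (hco v))
        exact h.swap.spin (i := (cB j.1 γ, δ)) (j := (v, β)) hl hL v.2 (supd_cB j.1 γ) (by rw [supd_self]; omega)
      · rw [nsmul_eq_mul, Finset.card_univ]
        have := hsq k.1; have := hsq j.1
        refine (mul_le_mul_of_nonneg_right hcard (by positivity)).trans (le_of_eq ?_)
        field_simp; ring
  have hfin := abs_undS_le (wOf_mem (eDual T)) S hsrc j.2
  rw [← mul_div_assoc, le_div_iff₀ (mul_pos (hsq _) (hsq _))] at hfin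
  have h9 := mul_self_le_mul_self (by have := hsq k.1; have := hsq j.1; positivity) hfin
  rw [← sq, ← sq, mul_pow, mul_pow, sq_abs, Real.sq_sqrt (hpos _).le, Real.sq_sqrt (hpos _).le] at h9
  exact h9

end Crest.Agent.R165.DU
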