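import Crest.Agent.R165.BC.Main
import Crest.Agent.R165.T.Main
import Crest.Agent.R165.DU.Dual

/-! # R165 block DU: the free boundary condition without spins and the zero mode (owner helper39) -/

set_option autoImplicit false
noncomputable section
open Classical Filter Topology

namespace Crest.Agent.R165
namespace DU

theorem supd_cB (x : Site) (α : Fin 4) : supd (cB x α) x ≤ 1 := by
  revert α
  refine forall4 ?_ ?_ ?_ ?_ <;> simp [cB, supd]

theorem supd_cW (b : Site) (β : Fin 4) : supd (cW b β) b ≤ 1 := by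
  have h := supd_cB (cW b β) (β + 2)
  rwa [cB_cW, supd_comm] at h

theorem cB_mem_box {x y : Site} {R : ℕ} (hy : y ∈ box x R) (α : Fin 4) : cB y α ∈ box x (R + 1) :=
  box_subset_box hy le_rfl (mem_box.2 (supd_cB y α))

theorem cW_mem_box {x y : Site} {R : ℕ} (hy : y ∈ box x R) (α : Fin 4) : cW y α ∈ box x (R + 1) :=
  box_subset_box hy le_rfl (mem_box.2 (supd_cW y α))

theorem dB_empty (l : ℕ) (x : Site) : dB ∅ l x = l := by simp [dB]

theorem dB_singleton (v : Site) (l : ℕ) (x : Site) : dB {v} l x = ((min (supd x v + 1) l : ℕ) : ℝ) := by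
  simp [dB]

theorem dB_eq_of_far {S : Finset Site} {l : ℕ} {x : Site} (h : ∀ v ∈ S, l ≤ supd x v + 1) : dB S l x = l := by
  unfold dB
  congr 1
  exact le_antisymm ((Finset.fold_min_le _).2 (Or.inl le_rfl)) ((Finset.le_fold_min _).2 ⟨le_rfl, h⟩)

/-- the dual source function of the row `k` -/
def srcRow (S : Finset Site) (g : HE → HE → ℝ) (k : HE) : Fn :=
  ∑ α, (-(sg S k.1 α * dC k.2 α)) • kC g (cB k.1 α) (α + 2)

/-- the row `k` of the kernel obtained from a kernel `g` of the dual picture -/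
def dualRow (τ : Edge → ℝ) (S : Finset Site) (g : HE → HE → ℝ) (k : HE) : Fn := undS τ S (srcRow S g k)

theorem cD_srcRow {w : Edge → ℝ} {g : HE → HE → ℝ} (hg : IsKer w g) (S : Finset Site) (k : HE) (y : Site) (β : Fin 4) :
    -(sg S y β * cD w (srcRow S g k) (cB y β) (β + 2)) = if y = k.1 then dC k.2 β else 0 := by
  rw [srcRow, cD_sum]
  simp only [cD_smul, cD_kC hg, corner_eq_iff]
  by_cases h : y = k.1
  · rw [if_pos h, Finset.sum_eq_single β]
    · rw [if_pos ⟨h, rfl⟩, ← h]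
      linear_combination (dC k.2 β) * sg_mul_self S y β
    · intro α _ hne; rw [if_neg fun h' => hne h'.2.symm, mul_zero]
    · intro h'; exact absurd (Finset.mem_univ _) h'
  · simp [h]

theorem finite_support_srcRow {g : HE → HE → ℝ} (hf : FinRow g) (S : Finset Site) (k : HE) :
    (Function.support (srcRow S g k)).Finite := by
  refine (Set.finite_iUnion fun α : Fin 4 => finite_support_kC hf (cB k.1 α) (α + 2)).subset fun i hi => ?_
  by_contra hn
  simp only [Set.mem_iUnion, Function.mem_support, not_exists, not_not] at hn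
  exact hi (by simp [srcRow, Finset.sum_apply, hn])

theorem abs_srcRow_le {g : HE → HE → ℝ} (S : Finset Site) {k j : HE} {m : ℝ} (h : ∀ α β, |g (cB k.1 α, β) j| ≤ m) :
    |srcRow S g k j| ≤ 4 * m := by
  rw [srcRow, Finset.sum_apply]
  refine (Finset.abs_sum_le_sum_abs _ _).trans ?_
  calc ∑ α, |((-(sg S k.1 α * dC k.2 α)) • kC g (cB k.1 α) (α + 2)) j| ≤ ∑ α, |dC k.2 α| * (2 * m) :=
        Finset.sum_le_sum fun α _ => by
          rw [Pi.smul_apply, smul_eq_mul, abs_mul, abs_neg, abs_mul, abs_sg, one_mul]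
          exact mul_le_mul_of_nonneg_left (abs_kC_le (h α)) (abs_nonneg _)
    _ = 4 * m := by rw [← Finset.sum_mul, sum_abs_dC]; ring

theorem finRow_dualRow (τ : Edge → ℝ) (S : Finset Site) {g : HE → HE → ℝ} (hf : FinRow g) : FinRow (dualRow τ S g) :=
  fun k => finite_support_undS τ S (finite_support_srcRow hf S k)

theorem opA_dualRow {t : Edge → ℝ} (ht : ∀ e, 1 + t e ≠ 0) {g : HE → HE → ℝ} (hg : IsKer (dW t) g) (k i : HE) :
    opA t (dualRow (dW t) ∅ g k) i = if i = k then 1 else 0 := by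
  refine opA_of_cD (fun y α => ?_) i
  have h := cD_undS ht ∅ (srcRow ∅ g k) y α (by simp)
  rw [sw_empty, sw_empty, cD_srcRow hg] at h
  exact h

/-- **duality of kernels** (no spins) -/
theorem isKer_dualRow {t : Edge → ℝ} (ht : ∀ e, 1 + t e ≠ 0) {g : HE → HE → ℝ} (hg : IsKer (dW t) g) (hf : FinRow g) :
    IsKer t (dualRow (dW t) ∅ g) := isKer_of_rows (opA_dualRow ht hg) (finRow_dualRow _ _ hf)

theorem abs_dualRow_le {τ : Edge → ℝ} (hτ : ∀ e, 0 ≤ τ e ∧ τ e ≤ 1) (S : Finset Site) {g : HE → HE → ℝ} {k j : HE} {m : ℝ}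
    (h : ∀ α β γ δ, |g (cB k.1 α, β) (cB j.1 γ, δ)| ≤ m) : |dualRow τ S g k j| ≤ 8 * m := by
  have := abs_undS_le hτ S (s := srcRow S g k) (x := j.1) (m := 4 * m)
    (fun γ δ => abs_srcRow_le S fun α β => h α β γ δ) j.2
  rw [dualRow]; linarith

theorem exists_ker_dual {T : Set Site} (hT : T.Finite) {ρ : ℝ} (hE : Reg (eDual T) ρ) (S : Finset Site) :
    ∃ g, IsKer (wOf (eDual T) S) g ∧ FinRow g := by
  have h := exists_ker (E := (eDual_finite hT).toFinset) (ρ := ρ) (by rwa [Set.Finite.coe_toFinset]) S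
  rwa [Set.Finite.coe_toFinset] at h

theorem edgeOf_mem_eDual {T : Set Site} {y : Site} {γ : Fin 4} (h : edgeOf y γ ∈ eDual T) : y ∈ T ∧ y + dv γ ∈ T := by
  refine forall4 (p := fun γ => edgeOf y γ ∈ eDual T → y ∈ T ∧ y + dv γ ∈ T) ?_ ?_ ?_ ?_ γ h
  · exact fun h => h
  · exact fun h => h
  · intro h
    have h1 : y - (1, 0) ∈ T := h.1
    have h2 : y - (1, 0) + (1, 0) ∈ T := h.2
    rw [s17] at h2
    exact ⟨h2, by rw [show dv 2 = (-1, 0) from rfl, add_m10]; exact h1⟩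
  · intro h
    have h1 : y - (0, 1) ∈ T := h.1
    have h2 : y - (0, 1) + (0, 1) ∈ T := h.2
    rw [s16] at h2
    exact ⟨h2, by rw [show dv 3 = (0, -1) from rfl, add_0m1]; exact h1⟩

theorem opp_eq_zero {s : Fn} {y : Site} {γ : Fin 4} (h : ∀ δ, s (y + dv γ, δ) = 0) : opp s y γ = 0 := by
  unfold opp sv; split_ifs <;> simp [h]

theorem srcRow_g0_eq_zero (S : Finset Site) {k j : HE} (h : 2 ≤ supd j.1 k.1) : srcRow S g0 k j = 0 := by
  rw [← abs_nonpos_iff, ← mul_zero (4 : ℝ)]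
  refine abs_srcRow_le S fun α β => ?_
  rw [g0_ne, abs_zero]
  intro h'
  have := supd_cB k.1 α
  rw [show cB k.1 α = j.1 from h'.symm] at this
  omega

theorem sb_mono {W W' : Set Site} {a a' : ℝ} {s : Fn} (h : SB W a s) (hW : W' ⊆ W) (ha : a ≤ a') : SB W' a' s :=
  fun x hx α => (h x (hW hx) α).trans ha

end DU
open DU

theorem exists_ker_free {T : Set Site} (hT : T.Finite) {ρ : ℝ} (hE : Reg (eDual T) ρ) :
    ∃ g, IsKer (wFree T ∅) g ∧ FinRow g := by
  obtain ⟨g, hg, hf⟩ := exists_ker_dual hT hE ∅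
  rw [← dW_wFree] at hg
  exact ⟨_, isKer_dualRow (one_add_ne (wFree_mem T)) hg hf, finRow_dualRow _ _ hf⟩

theorem ker_bound_free : ∃ (C : ℝ) (K : ℕ), ∀ (T : Set Site) (ρ : ℝ) (g : HE → HE → ℝ), T.Finite → Reg (eDual T) ρ →
    IsKer (wFree T ∅) g → FinRow g → ∀ (l : ℕ) (i j : HE), 1 ≤ l → (K * (l + K) : ℝ) ≤ ρ → l ≤ supd i.1 j.1 + 1 →
    |g i j| * l ≤ C := by
  obtain ⟨C, K, hC⟩ := ker_bound 0
  refine ⟨24 * |C|, K, fun T ρ g hT hE hg hf l i j hl hK hd => ?_⟩
  obtain ⟨g', hg', hf'⟩ := exists_ker_dual hT hE ∅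
  have hC' := hC (eDual_finite hT).toFinset ρ ∅ g' (by rwa [Set.Finite.coe_toFinset]) (by simp)
    (by rwa [Set.Finite.coe_toFinset]) hf'
  have hrow : dualRow (wOf (eDual T) ∅) ∅ g' i = g i := by
    rw [← dW_wFree] at hg' ⊢
    exact eq_row_of_ker hg hf (opA_dualRow (one_add_ne (wFree_mem T)) hg' i)
  obtain ⟨l', hl1, hl2, hl3, hl4⟩ : ∃ l' : ℕ, 1 ≤ l' ∧ l' ≤ l ∧ l ≤ 3 * l' ∧ (l' = 1 ∨ l' + 2 ≤ l) :=
    ⟨max 1 (l - 2), by omega, by omega, by omega, by omega⟩
  have hl0 : (0 : ℝ) < l' := by exact_mod_cast hl1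
  have hb : ∀ α β γ δ, |g' (cB i.1 α, β) (cB j.1 γ, δ)| ≤ |C| / l' := by
    intro α β γ δ
    have h1 := supd_cB i.1 α
    have h2 := supd_cB j.1 γ
    have h3 := supd_triangle i.1 (cB i.1 α) j.1
    have h4 := supd_triangle (cB i.1 α) (cB j.1 γ) j.1
    rw [supd_comm i.1 (cB i.1 α)] at h3
    have h := hC' l' (cB i.1 α, β) (cB j.1 γ, δ) hl1
      (le_trans (by have : (l' : ℝ) ≤ l := by exact_mod_cast hl2
                    gcongr) hK) (by show l' ≤ supd (cB i.1 α) (cB j.1 γ) + 1; omega)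
    rw [dB_empty, dB_empty] at h
    rw [le_div_iff₀ hl0, ← abs_of_pos hl0, ← abs_mul]
    exact sq_le_sq.1 (by nlinarith)
  have h := abs_dualRow_le (wOf_mem (eDual T)) ∅ hb
  rw [hrow] at h
  have h3 : (l : ℝ) ≤ 3 * l' := by exact_mod_cast hl3
  calc |g i j| * l ≤ 8 * (|C| / l') * (3 * l') := by gcongr
    _ = 24 * |C| := by field_simp; ring

/-- far from `T` the free kernel (with or without spins in `T`) is ultra-local -/
theorem ker_free_local {T : Set Site} (hT : T.Finite) {S : Finset Site} (hS : ↑S ⊆ T) {g : HE → HE → ℝ}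
    (hg : IsKer (wFree T S) g) (hf : FinRow g) (i j : HE) (hi : ∀ z ∈ T, 3 ≤ supd i.1 z) (hij : 3 ≤ supd i.1 j.1) :
    g i j = 0 := by
  have ht := one_add_ne (wFree_mem T)
  have hop : ∀ k, opA (wOf (eDual T) S) (srcRow S g0 i) k = opA 0 (srcRow S g0 i) k := by
    intro k
    refine opA_congr_w ?_
    by_cases h : edgeOf k.1 k.2 ∈ eDual T
    · refine Or.inr (opp_eq_zero fun δ => srcRow_g0_eq_zero S ?_)
      have := hi _ (edgeOf_mem_eDual h).2
      rw [supd_comm] at this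
      show 2 ≤ supd (k.1 + dv k.2) i.1
      omega
    · exact Or.inl (by simp [wOf, h])
  have hrow : dualRow (dW (wFree T ∅)) S g0 i = g i := by
    refine eq_row_of_ker hg hf (opA_of_cD fun y α => ?_)
    rw [wFree_eq T S, dualRow]
    by_cases h : α = 0 ∧ y + (1, 1) ∈ S
    · obtain ⟨rfl, hy⟩ := h
      have h3 := hi _ (hS hy)
      have hz : ∀ z δ, supd z (y + (1, 1)) ≤ 1 → srcRow S g0 i (z, δ) = 0 := fun z δ hz => by
        refine srcRow_g0_eq_zero S ?_
        have := supd_triangle i.1 z (y + (1, 1))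
        rw [supd_comm i.1 z] at this
        show 2 ≤ supd z i.1
        omega
      rw [cD_undS_flip ht S _ y hy, cP2, cQ2, hz _ _ (by simp [supd]), hz _ _ (by simp [supd]),
        hz _ _ (by simp [supd]), hz _ _ (by simp [supd]), if_neg]
      · simp
      · rintro rfl
        simp [supd] at h3
    · rw [cD_undS ht S _ y α h, sw_dW_wFree, cD_eq, hop, hop, ← cD_eq, cD_srcRow isKer_g0]
  rw [← hrow]
  refine undS_eq_zero _ S (fun β γ => srcRow_g0_eq_zero S ?_) j.2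
  have h1 := supd_cB j.1 β
  have h2 := supd_triangle i.1 (cB j.1 β) j.1
  rw [supd_comm i.1 (cB j.1 β)] at h2
  show 2 ≤ supd (cB j.1 β) i.1
  omega

theorem mode_bdry_free (η : ℝ) (hη : 0 < η) : ∃ L K : ℕ, 1 ≤ L ∧ ∀ (T : Set Site) (ρ : ℝ) (S : Finset Site) (b : Site)
    (r : ℕ) (s₁ s₂ : Fn), Reg (eDual T) ρ → K ≤ r → (K * r : ℝ) ≤ ρ → BdryB (eDual T) b →
    (∀ v ∈ S, v ∉ box b (L * r + 4)) →
    SolOn (wFree T S) (box b (L * r)) s₁ → SolOn (wFree T S) (box b (L * r)) s₂ →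
    SB (box b (L * r)) 1 s₁ → SB (box b (L * r)) 1 s₂ →
    ∃ c₁ c₂ : ℝ, |c₁| + |c₂| = 1 ∧ SB (box b r) η (c₁ • s₁ + c₂ • s₂) := by
  obtain ⟨L, K, hL, h⟩ := mode_bdry (η / 4) (by positivity)
  refine ⟨2 * L + 1, 2 * K + 1, by omega, fun T ρ S b r s₁ s₂ hE hK hρ hb hS h1 h2 hb1 hb2 => ?_⟩
  have ht := one_add_ne (wFree_mem T)
  have hr : 1 ≤ r := by omega
  have hLr : L * (r + 1) + 1 ≤ (2 * L + 1) * r := by nlinarith
  have hsol : ∀ s, SolOn (wFree T S) (box b ((2 * L + 1) * r)) s →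
      SolOn (wOf (eDual T) S) (box b (L * (r + 1))) ((1 / 2 : ℝ) • dualS (wFree T ∅) S s) := by
    intro s hs
    rw [wFree_eq] at hs
    rw [← sw_dW_wFree]
    refine SolOn.smul (sol_dualS ht S hs fun y hy => ⟨fun hy' => hS y hy' (box_mono b (by omega) hy), fun β => ?_⟩) _
    exact box_mono b hLr (cW_mem_box hy β)
  have hsb : ∀ s, SB (box b ((2 * L + 1) * r)) 1 s → SB (box b (L * (r + 1))) 1 ((1 / 2 : ℝ) • dualS (wFree T ∅) S s) := by
    intro s hs y hy α
    have := abs_dualS_le (wFree_mem T) S (s := s) (b := y) (m := 1)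
      (fun β γ => hs _ (box_mono b hLr (cW_mem_box hy β)) γ) α
    rw [Pi.smul_apply, smul_eq_mul, abs_mul, abs_of_pos (by norm_num : (0 : ℝ) < 1 / 2)]
    linarith
  obtain ⟨c₁, c₂, hc, hcs⟩ := h (eDual T) ρ S b (r + 1) _ _ hE (by omega)
    (le_trans (by have : (1 : ℝ) ≤ r := by exact_mod_cast hr
                  push_cast; nlinarith [(Nat.cast_nonneg K : (0 : ℝ) ≤ K)]) hρ) hb
    (fun v hv hv' => hS v hv (box_mono b (by omega) hv')) (hsol _ h1) (hsol _ h2) (hsb _ hb1) (hsb _ hb2)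
  refine ⟨c₁, c₂, hc, fun y hy α => ?_⟩
  have e : c₁ • s₁ + c₂ • s₂ = (2 : ℝ) • undS (wOf (eDual T) ∅) S
      (c₁ • (1 / 2 : ℝ) • dualS (wFree T ∅) S s₁ + c₂ • (1 / 2 : ℝ) • dualS (wFree T ∅) S s₂) := by
    rw [← dW_wFree, undS_add, undS_smul, undS_smul, undS_smul, undS_smul, undS_dualS ht, undS_dualS ht]
    module
  have := abs_undS_le (wOf_mem (eDual T)) S (x := y) (fun β γ => hcs _ (cB_mem_box hy β) γ) α
  rw [e, Pi.smul_apply, smul_eq_mul, abs_mul, abs_two]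
  linarith

/-- local a priori bound for the free weights: near the boundary (no spin in the box), or in the bulk -/
theorem apriori_free : ∃ (C : ℝ) (K : ℕ), ∀ (T : Set Site) (ρ : ℝ) (S : Finset Site) (x : Site) (l : ℕ) (s : Fn) (M : ℝ),
    Reg (eDual T) ρ → K ≤ l → (K * l : ℝ) ≤ ρ → (∀ v ∈ S, v ∉ box x (4 * l + 4)) →
    SolOn (wFree T S) (box x (4 * l + 2)) s → SB (frame x (l - 2) (4 * l + 2)) M s → SB (box x (2 * l - 2)) (C * M) s := by
  obtain ⟨C, K, h⟩ := apriori_sup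
  refine ⟨4 * |C|, K + 1, fun T ρ S x l s M hE hK hρ hS hs hb => ?_⟩
  have ht := one_add_ne (wFree_mem T)
  have hl : 1 ≤ l := by omega
  have hl0 : (0 : ℝ) < l := by exact_mod_cast hl
  have hM : 0 ≤ M := by
    refine (abs_nonneg _).trans (hb (x + ((l : ℤ), 0)) ?_ 0)
    simp only [frame, Finset.coe_sdiff, Set.mem_sdiff, Finset.mem_coe, mem_box', Prod.fst_add, Prod.snd_add]
    omega
  have hsol : SolOn (wOf (eDual T) S) (box x (4 * l)) (dualS (wFree T ∅) S s) := by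
    rw [wFree_eq] at hs
    rw [← sw_dW_wFree]
    exact sol_dualS ht S hs fun y hy => ⟨fun hy' => hS y hy' (box_mono x (by omega) hy),
      fun β => box_mono x (by omega) (cW_mem_box hy β)⟩
  have hsb : SB (frame x l (4 * l)) (2 * M) (dualS (wFree T ∅) S s) := by
    intro y hy α
    refine abs_dualS_le (wFree_mem T) S (fun β γ => hb _ ?_ γ) α
    simp only [frame, Finset.coe_sdiff, Set.mem_sdiff, Finset.mem_coe, mem_box] at hy ⊢
    have h1 := supd_cW y β
    have h2 := supd_triangle (cW y β) y x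
    have h3 := supd_triangle y (cW y β) x
    rw [supd_comm y (cW y β)] at h3
    omega
  have hw := h (eDual T) ρ S x l _ _ hE (by omega)
    (le_trans (by push_cast; nlinarith) hρ) hsol hsb
  intro y hy α
  have hb' : ∀ β γ, |dualS (wFree T ∅) S s (cB y β, γ)| ≤ 2 * |C| * M := by
    intro β γ
    have hy' : cB y β ∈ box x (2 * l) := box_mono x (by omega) (cB_mem_box hy β)
    have h1 := hw _ hy' γ
    rw [dB_eq_of_far] at h1
    · have h2 := sq_le_sq.1 (le_of_mul_le_mul_right h1 hl0)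
      rwa [abs_mul, abs_of_nonneg (by positivity : 0 ≤ 2 * M), ← mul_assoc, mul_comm |C| 2] at h2
    · intro v hv
      have h2 := hS v hv
      rw [mem_box] at h2 hy'
      have h3 := supd_triangle v (cB y β) x
      rw [supd_comm v (cB y β)] at h3
      omega
  have := abs_undS_le (wOf_mem (eDual T)) S (x := y) hb' α
  rw [← dW_wFree, undS_dualS ht] at this
  linarith

namespace DU

/-- the zero mode of the branch point `0` built from a kernel `g` of `wOf univ {0}` -/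
def zeroMode (g : HE → HE → ℝ) : Fn := dualS wPl {0} (kC g (-1, -1) 0)

theorem zeroMode_sol {g : HE → HE → ℝ} (hg : IsKer (wOf Set.univ {0}) g) :
    SolOn (wOf Set.univ {0}) Set.univ (zeroMode g) := by
  have ht := one_add_ne wPl_mem
  rw [solOn_iff]
  intro b _ β
  rw [wOf_univ] at hg
  rw [← sw_dW_wPl, zeroMode]
  by_cases h : β = 2 ∧ b ∈ ({0} : Finset Site)
  · obtain ⟨rfl, hb⟩ := h
    obtain rfl := Finset.mem_singleton.1 hb
    have := cD_dualS_flip ht {0} (kC g (-1, -1) 0) (-1, -1) (by decide)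
    rw [cP_kC_self hg, cQ_kC_self hg] at this
    refine Eq.trans this (by ring)
  · rw [cD_dualS' ht _ _ b β h, cD_kC hg, if_neg, mul_zero, neg_zero]
    rintro ⟨h1, h2⟩
    have h3 : β = 2 := by rw [← add_two_two β, h2]; rfl
    subst h3
    refine h ⟨rfl, Finset.mem_singleton.2 ?_⟩
    rw [← cB_cW b 2, h1]; rfl

/-- the corner value of the zero mode at the corner `(0, 2)` -/
theorem cP_zeroMode {g : HE → HE → ℝ} (hg : IsKer (wOf Set.univ {0}) g) :
    cP (wOf Set.univ {0}) (zeroMode g) 0 2 = -1 / 2 := by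
  have h := cP_dualS (one_add_ne wPl_mem) {0} (kC g (-1, -1) 0) (-1, -1) 0
  rw [sw_dW_wPl, ← wOf_univ, cQ_kC_self hg] at h
  refine Eq.trans h ?_
  have : sg {0} (-1, -1) 0 = 1 := by
    show eray {0} ((-1, -1), 1) = 1
    simp [eray, Finset.filter_singleton]
  rw [this, one_mul]

theorem zeroMode_ne_zero {g : HE → HE → ℝ} (hg : IsKer (wOf Set.univ {0}) g) : zeroMode g ≠ 0 := fun h => by
  have h1 := cP_zeroMode hg
  rw [h, cP2] at h1
  norm_num at h1

theorem zeroMode_bound {g : HE → HE → ℝ} {C : ℝ}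
    (hC : ∀ (l : ℕ) (i j : HE), 1 ≤ l → l ≤ supd i.1 j.1 + 1 → g i j ^ 2 * (dB {0} l i.1 * dB {0} l j.1) ≤ C ^ 2)
    (b : Site) (β : Fin 4) : zeroMode g (b, β) ^ 2 * ((supd b 0 + 1 : ℕ) : ℝ) ≤ 48 * C ^ 2 := by
  set n : ℝ := ((supd b 0 + 1 : ℕ) : ℝ) with hn
  have hn0 : 0 < n := by rw [hn]; positivity
  have hb : ∀ β' γ δ, |g ((-1, -1), δ) (cW b β', γ)| ≤ Real.sqrt (3 * C ^ 2 / n) := by
    intro β' γ δ
    refine Real.abs_le_sqrt ((le_div_iff₀ hn0).2 ?_)
    have h := hC (supd (-1, -1) (cW b β') + 1) ((-1, -1), δ) (cW b β', γ) (by omega) le_rfl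
    rw [dB_singleton, dB_singleton] at h
    have h1 := supd_cW b β'
    have h2 := supd_triangle b (cW b β') 0
    have h3 := supd_triangle (cW b β') (-1, -1) 0
    have h4 : supd (-1, -1) 0 = 1 := by simp [supd]
    rw [supd_comm b (cW b β')] at h2
    rw [supd_comm (cW b β') (-1, -1)] at h3
    have h5 : supd b 0 + 1 ≤ 3 * (min (supd (-1, -1) 0 + 1) (supd (-1, -1) (cW b β') + 1) *
        min (supd (cW b β') 0 + 1) (supd (-1, -1) (cW b β') + 1)) := by
      have h6 : 1 ≤ min (supd (-1, -1) 0 + 1) (supd (-1, -1) (cW b β') + 1) := by omega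
      have h7 : supd b 0 + 1 ≤ 3 * min (supd (cW b β') 0 + 1) (supd (-1, -1) (cW b β') + 1) := by omega
      nlinarith
    have h8 : n ≤ 3 * (((min (supd (-1, -1) 0 + 1) (supd (-1, -1) (cW b β') + 1) : ℕ) : ℝ) *
        ((min (supd (cW b β') 0 + 1) (supd (-1, -1) (cW b β') + 1) : ℕ) : ℝ)) := by
      rw [hn]; exact_mod_cast h5
    nlinarith [sq_nonneg (g ((-1, -1), δ) (cW b β', γ))]
  have h := abs_dualS_le wPl_mem {0} (s := kC g (-1, -1) 0) (b := b)
    (fun β' γ => abs_kC_le fun δ => hb β' γ δ) β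
  have h2 : zeroMode g (b, β) ^ 2 ≤ 16 * (3 * C ^ 2 / n) := by
    rw [← sq_abs, ← Real.sq_sqrt (by positivity : 0 ≤ 3 * C ^ 2 / n)]
    have h3 : |zeroMode g (b, β)| ≤ 4 * Real.sqrt (3 * C ^ 2 / n) := by rw [zeroMode]; linarith
    nlinarith [abs_nonneg (zeroMode g (b, β))]
  calc zeroMode g (b, β) ^ 2 * n ≤ 16 * (3 * C ^ 2 / n) * n := by gcongr
    _ = 48 * C ^ 2 := by field_simp; ring

end DU

/-- **the zero mode of a branch point**: the dual corner-source solution. -/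
theorem exists_zeroMode : ∃ (φ : Fn) (C : ℝ), SolOn (wOf Set.univ {0}) Set.univ φ ∧ φ ≠ 0 ∧
    ∀ l : ℕ, 1 ≤ l → WB {0} Set.univ l (C / Real.sqrt l) φ := by
  obtain ⟨g, C, hg, hC⟩ := exists_gBr
  refine ⟨zeroMode g, 7 * C, zeroMode_sol hg, zeroMode_ne_zero hg, fun l hl b _ β => ?_⟩
  have hl0 : (0 : ℝ) < l := by exact_mod_cast hl
  have h := zeroMode_bound hC b β
  rw [div_pow, Real.sq_sqrt hl0.le, div_mul_cancel₀ _ hl0.ne', dB_singleton]
  have h1 : ((min (supd b 0 + 1) l : ℕ) : ℝ) ≤ ((supd b 0 + 1 : ℕ) : ℝ) := by exact_mod_cast min_le_left _ _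
  nlinarith [sq_nonneg (zeroMode g (b, β)), sq_nonneg C]

end Crest.Agent.R165
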